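import Vale.Agent.P097.H536.T8.G2

/-! # P097 / TRIG-T8, part 3: the ratio function near infinity -/

set_option linter.all false

open Complex Metric Filter Topology Set
open scoped ComplexConjugate

namespace Vale.Agent.P097.H536.T8

open Vale.Agent.P097.H536

/-- the exponent as a real number -/
noncomputable def mr (n : ℕ) : ℝ := 3 / ((n : ℝ) + 2)

theorem mr_pos (n : ℕ) : 0 < mr n := by unfold mr; positivity

theorem mu_eq (n : ℕ) : mu n = (mr n : ℂ) := by
  rw [mu, mr]
  push_cast
  rfl

theorem asy {n : ℕ} {l₀ : ℝ} {q : ℂ → ℂ} (h : QF n l₀ q) :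
    ∃ L : ℝ, l₀ + 1 < L ∧ (∀ l : ℂ, L < ‖l‖ → 0 < l.im → q l ∈ RR n) ∧
      (∀ x : ℝ, L < x → ∃ t : ℝ, 0 < t ∧ t < 1 ∧ q x = t) ∧
      (∀ x : ℝ, x < -L → ∃ t : ℝ, 1 < t ∧ q x = t) := by
  obtain ⟨C₀, hC₀⟩ := h.asym
  have hl := h.hl
  have hn := h.hn
  set m : ℝ := mr n with hm
  have hm0 : 0 < m := mr_pos n
  -- a nonnegative constant
  set C : ℝ := |C₀| + 1 with hC
  have hC1 : 0 < C := by positivity
  have hCb : ∀ l : ℂ, l₀ < ‖l‖ → ‖q l - 1 + m / l‖ ≤ C / ‖l‖ ^ 2 := by
    intro l hlt
    have h1 := hC₀ l hlt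
    rw [mu_eq] at h1
    refine h1.trans ?_
    have : C₀ ≤ C := by
      rw [hC]
      linarith [le_abs_self C₀]
    gcongr
  set e : ℂ → ℂ := fun v => q v⁻¹ - 1 + m * v with he
  have hnv : ∀ v : ℂ, v ≠ 0 → ‖v‖ < l₀⁻¹ → l₀ < ‖v⁻¹‖ := by
    intro v hv0 hv
    rw [norm_inv]
    have := norm_pos_iff.2 hv0
    rw [lt_inv_comm₀ this hl] at hv
    exact hv
  have heb : ∀ v : ℂ, v ≠ 0 → ‖v‖ < l₀⁻¹ → ‖e v‖ ≤ C * ‖v‖ ^ 2 := by
    intro v hv0 hv
    have h1 := hCb v⁻¹ (hnv v hv0 hv)
    rw [norm_inv, inv_pow, div_inv_eq_mul] at h1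
    rw [he]
    simpa [div_eq_mul_inv] using h1
  have hed : ∀ v : ℂ, v ≠ 0 → ‖v‖ < l₀⁻¹ → DifferentiableAt ℂ e v := by
    intro v hv0 hv
    have ho : IsOpen {l : ℂ | l₀ < ‖l‖} := isOpen_lt continuous_const continuous_norm
    have h1 : DifferentiableAt ℂ q v⁻¹ :=
      h.hol.differentiableAt (ho.mem_nhds (hnv v hv0 hv))
    have h2 : DifferentiableAt ℂ (fun v : ℂ => q v⁻¹) v :=
      DifferentiableAt.comp v (f := fun v : ℂ => v⁻¹) h1 (differentiableAt_inv hv0)
    exact (h2.sub_const 1).add (differentiableAt_id.const_mul _)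
  -- derivative
  have hder : ∀ v : ℂ, v ≠ 0 → ‖v‖ * 2 < l₀⁻¹ → ‖deriv e v‖ ≤ 5 * C * ‖v‖ := by
    intro v hv0 hv
    have hvp := norm_pos_iff.2 hv0
    have hmem : ∀ z ∈ closedBall v (‖v‖ / 2), z ≠ 0 ∧ ‖z‖ ≤ 3 / 2 * ‖v‖ := by
      intro z hz
      rw [mem_closedBall, dist_eq_norm] at hz
      constructor
      · rintro rfl
        rw [zero_sub, norm_neg] at hz
        linarith
      · have : ‖z‖ ≤ ‖z - v‖ + ‖v‖ := by simpa using norm_add_le (z - v) v
        linarith
    have hd : DiffContOnCl ℂ e (ball v (‖v‖ / 2)) := by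
      apply DifferentiableOn.diffContOnCl
      intro z hz
      have hz' := hmem z (closure_ball_subset_closedBall hz)
      exact (hed z hz'.1 (by linarith [hz'.2])).differentiableWithinAt
    have := Complex.norm_deriv_le_of_forall_mem_sphere_norm_le (by positivity) hd
      (C := C * (3 / 2 * ‖v‖) ^ 2) (by
        intro z hz
        have hz' := hmem z (sphere_subset_closedBall hz)
        refine (heb z hz'.1 (by linarith [hz'.2])).trans ?_
        gcongr
        exact hz'.2)
    refine this.trans ?_
    rw [div_le_iff₀ (by positivity)]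
    nlinarith [mul_pos hC1 (mul_pos hvp hvp)]
  -- imaginary part
  have him : ∀ v : ℂ, v.im ≠ 0 → ‖v‖ * 2 < l₀⁻¹ → |(e v).im| ≤ 5 * C * ‖v‖ * |v.im| := by
    intro v hvi hv
    have hv0 : v ≠ 0 := by
      rintro rfl
      simp at hvi
    have hvp := norm_pos_iff.2 hv0
    by_cases hx : v.re = 0
    · have h1 := (abs_im_le_norm (e v)).trans (heb v hv0 (by linarith))
      have h2 : ‖v‖ = |v.im| := by
        rw [← Complex.re_add_im v, hx]
        simp
      refine h1.trans ?_
      rw [← h2]
      nlinarith [mul_pos hC1 (mul_pos hvp hvp)]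
    · -- the foot point
      set x : ℂ := (v.re : ℂ) with hxd
      have hx0 : x ≠ 0 := by
        rw [hxd]
        exact_mod_cast hx
      have hseg : ∀ z ∈ segment ℝ x v, z ≠ 0 ∧ ‖z‖ ≤ ‖v‖ := by
        intro z hz
        obtain ⟨s, t, hs, ht, hst, rfl⟩ := hz
        have hre : (s • x + t • v).re = v.re := by
          simp [hxd]
          rw [← add_mul, hst, one_mul]
        have hi : (s • x + t • v).im = t * v.im := by
          simp [hxd]
        constructor
        · intro h0
          rw [h0] at hre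
          exact hx (by simpa using hre.symm)
        · rw [Complex.norm_def, Complex.norm_def, normSq_apply, normSq_apply, hre, hi]
          apply Real.sqrt_le_sqrt
          have ht1 : t ≤ 1 := by linarith
          nlinarith [mul_self_nonneg v.im, mul_nonneg ht (sub_nonneg.2 ht1)]
      have h1 := (convex_segment x v).norm_image_sub_le_of_norm_hasDerivWithin_le
        (f := e) (f' := deriv e) (C := 5 * C * ‖v‖)
        (fun z hz => ((hed z (hseg z hz).1 (by linarith [(hseg z hz).2])).hasDerivAt).hasDerivWithinAt)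
        (fun z hz => by
          refine (hder z (hseg z hz).1 (by linarith [(hseg z hz).2])).trans ?_
          gcongr
          exact (hseg z hz).2)
        (left_mem_segment ℝ x v) (right_mem_segment ℝ x v)
      have h2 : ‖v - x‖ = |v.im| := by
        have : v - x = (v.im : ℂ) * I := by
          apply Complex.ext <;> simp [hxd]
        rw [this, norm_mul, norm_I, mul_one, norm_real, Real.norm_eq_abs]
      rw [h2] at h1
      have h3 : (e x).im = 0 := by
        have h4 : q (conj x⁻¹) = conj (q x⁻¹) := h.re _ (by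
          apply hnv x hx0
          have := (hseg x (left_mem_segment ℝ x v)).2
          linarith)
        have h5 : conj x⁻¹ = x⁻¹ := by
          rw [hxd, ← ofReal_inv, conj_ofReal]
        rw [h5] at h4
        have h6 : (q x⁻¹).im = 0 := Complex.conj_eq_iff_im.1 h4.symm
        simp only [he]
        rw [add_im, sub_im, h6, one_im, hxd, ← ofReal_mul, ofReal_im]
        ring
      calc |(e v).im| = |(e v - e x).im| := by rw [sub_im, h3, sub_zero]
        _ ≤ ‖e v - e x‖ := abs_im_le_norm _
        _ ≤ _ := h1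
  -- argument near one
  obtain ⟨δ, hδ, hδa⟩ : ∃ δ > 0, ∀ z : ℂ, ‖z - 1‖ < δ → |z.arg| < Real.pi / n := by
    have hc : ContinuousAt arg 1 := continuousAt_arg one_mem_slitPlane
    have hn0 : (0 : ℝ) < n := by exact_mod_cast (by omega : 0 < n)
    obtain ⟨δ, hδ, h1⟩ := Metric.continuousAt_iff.1 hc (Real.pi / n) (by
      have := Real.pi_pos
      positivity)
    refine ⟨δ, hδ, fun z hz => ?_⟩
    have := h1 (x := z) (by rwa [dist_eq_norm])
    rwa [arg_one, Real.dist_eq, sub_zero] at this
  -- the radius
  set L : ℝ := (l₀ + 2) * 2 + 5 * C / m + (m + C) / δ + 2 * C / m + m + C + 1 with hL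
  have t1 : 0 < 5 * C / m := by positivity
  have t2 : 0 < (m + C) / δ := by positivity
  have t3 : 0 < 2 * C / m := by positivity
  refine ⟨L, by rw [hL]; linarith, ?_, ?_, ?_⟩
  · intro l hlL hli
    have hl1 : 1 < ‖l‖ := by
      rw [hL] at hlL
      linarith
    have hl0 : l ≠ 0 := by
      rintro rfl
      simp at hli
    have hlp := norm_pos_iff.2 hl0
    have hll : l₀ < ‖l‖ := by
      rw [hL] at hlL
      linarith
    -- im
    set v := l⁻¹ with hv
    have hvi : v.im = -l.im / ‖l‖ ^ 2 := by
      rw [hv, inv_im, normSq_eq_norm_sq]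
    have hvn : ‖v‖ = ‖l‖⁻¹ := by rw [hv, norm_inv]
    have hvneg : v.im < 0 := by
      rw [hvi]
      apply div_neg_of_neg_of_pos (by linarith) (by positivity)
    have hv2 : ‖v‖ * 2 < l₀⁻¹ := by
      rw [hvn, inv_mul_lt_iff₀ hlp, ← div_eq_mul_inv, lt_div_iff₀ hl]
      rw [hL] at hlL
      linarith
    have h1 := him v hvneg.ne hv2
    have h2 : q l = 1 - m * v + e v := by
      simp only [he, hv, inv_inv]
      ring
    have h3 : (q l).im = -m * v.im + (e v).im := by
      rw [h2, add_im, sub_im, one_im, im_ofReal_mul]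
      ring
    have h4 : 5 * C * ‖v‖ < m := by
      rw [hvn, ← div_eq_mul_inv, div_lt_iff₀ hlp]
      have : 5 * C / m < ‖l‖ := by
        rw [hL] at hlL
        linarith
      rw [div_lt_iff₀ hm0] at this
      linarith
    have h5 : 0 < (q l).im := by
      rw [h3]
      rw [abs_of_neg hvneg] at h1
      have h6 := (abs_le.1 h1).1
      nlinarith
    apply mem_RR hn h5
    have hn0 : (0 : ℝ) < n := by exact_mod_cast (by omega : 0 < n)
    have h6 : ‖q l - 1‖ < δ := by
      have h7 := hCb l hll
      have h8 : ‖q l - 1‖ ≤ ‖q l - 1 + m / l‖ + ‖(m : ℂ) / l‖ := by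
        simpa using norm_sub_le (q l - 1 + m / l) ((m : ℂ) / l)
      rw [norm_div, norm_real, Real.norm_of_nonneg hm0.le] at h8
      have h9 : C / ‖l‖ ^ 2 ≤ C / ‖l‖ := by
        apply div_le_div_of_nonneg_left hC1.le hlp
        nlinarith
      have h10 : (m + C) / ‖l‖ < δ := by
        rw [div_lt_iff₀ hlp]
        have : (m + C) / δ < ‖l‖ := by
          rw [hL] at hlL
          linarith
        rw [div_lt_iff₀ hδ] at this
        linarith
      rw [add_div] at h10
      linarith
    have h11 := hδa _ h6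
    rw [lt_div_iff₀ hn0] at h11
    have h12 := le_abs_self (q l).arg
    nlinarith
  · intro x hx
    have hx0 : 0 < x := by
      rw [hL] at hx
      linarith
    have hxn : ‖(x : ℂ)‖ = x := by rw [norm_real, Real.norm_of_nonneg hx0.le]
    have hll : l₀ < ‖(x : ℂ)‖ := by
      rw [hxn]
      rw [hL] at hx
      linarith
    have hre : (q x).im = 0 := by
      have := h.re x hll
      rw [conj_ofReal] at this
      exact Complex.conj_eq_iff_im.1 this.symm
    have hq : q x = ((q x).re : ℂ) := by
      apply Complex.ext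
      · rw [ofReal_re]
      · rw [hre, ofReal_im]
    have h7 := hCb x hll
    rw [hxn] at h7
    have h8 : |(q x).re - 1 + m / x| ≤ C / x ^ 2 := by
      have h9 : (q x - 1 + m / x : ℂ) = (((q x).re - 1 + m / x : ℝ) : ℂ) := by
        rw [hq]
        push_cast
        simp
      rw [h9, norm_real] at h7
      exact h7
    have h10 : C / x ^ 2 ≤ C / x / x := by
      rw [div_div, sq]
    have h11 : C / x < m / 2 := by
      rw [div_lt_iff₀ hx0]
      have : 2 * C / m < x := by
        rw [hL] at hx
        linarith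
      rw [div_lt_iff₀ hm0] at this
      linarith
    have h12 : C / x / x < m / x / 2 := by
      have : C / x / x < m / 2 / x := by gcongr
      calc C / x / x < m / 2 / x := this
        _ = m / x / 2 := by ring
    have h13 : m / x < 1 / 2 ∨ True := Or.inr trivial
    have h14 : m / x + C / x / x < 1 := by
      have hx1 : 1 < x := by
        rw [hL] at hx
        linarith
      have : C / x / x ≤ C / x := div_le_self (by positivity) hx1.le
      have h15 : (m + C) / x < 1 := by
        rw [div_lt_one hx0]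
        rw [hL] at hx
        linarith
      rw [add_div] at h15
      linarith
    obtain ⟨a1, a2⟩ := abs_le.1 h8
    have hmx : 0 < m / x := by positivity
    refine ⟨(q x).re, by linarith, by linarith, hq⟩
  · intro x hx
    have hx0 : 0 < -x := by
      rw [hL] at hx
      linarith
    have hxn : ‖(x : ℂ)‖ = -x := by rw [norm_real, Real.norm_of_nonpos (by linarith)]
    have hll : l₀ < ‖(x : ℂ)‖ := by
      rw [hxn]
      rw [hL] at hx
      linarith
    have hre : (q x).im = 0 := by
      have := h.re x hll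
      rw [conj_ofReal] at this
      exact Complex.conj_eq_iff_im.1 this.symm
    have hq : q x = ((q x).re : ℂ) := by
      apply Complex.ext
      · rw [ofReal_re]
      · rw [hre, ofReal_im]
    have h7 := hCb x hll
    rw [hxn] at h7
    have h8 : |(q x).re - 1 + m / x| ≤ C / (-x) ^ 2 := by
      have h9 : (q x - 1 + m / x : ℂ) = (((q x).re - 1 + m / x : ℝ) : ℂ) := by
        rw [hq]
        push_cast
        simp
      rw [h9, norm_real] at h7
      exact h7
    have h10 : C / (-x) ^ 2 ≤ C / (-x) / (-x) := by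
      rw [div_div, sq]
    have h11 : C / (-x) < m / 2 := by
      rw [div_lt_iff₀ hx0]
      have : 2 * C / m < -x := by
        rw [hL] at hx
        linarith
      rw [div_lt_iff₀ hm0] at this
      linarith
    have h12 : C / (-x) / (-x) < m / (-x) / 2 := by
      have : C / (-x) / (-x) < m / 2 / (-x) := by gcongr
      calc C / (-x) / (-x) < m / 2 / (-x) := this
        _ = m / (-x) / 2 := by ring
    obtain ⟨a1, a2⟩ := abs_le.1 h8
    have hmx : 0 < m / (-x) := by positivity
    have e1 : m / x = -(m / (-x)) := by rw [div_neg, neg_neg]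
    refine ⟨(q x).re, by linarith, hq⟩

end Vale.Agent.P097.H536.T8
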