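import Vale.Agent.P097.H536.T8.Loc

/-! # P097 / TRIG-T8, part 5: extension of the ratio function to the upper half plane -/

set_option linter.all false

open Complex Metric Filter Topology Set
open scoped ComplexConjugate

namespace Vale.Agent.P097.H536.T8

open Vale.Agent.P097.H536

/-- upper half plane of height `h` -/
def Upp (h : ℝ) : Set ℂ := {l | h < l.im}

@[simp] theorem mem_Upp {h : ℝ} {l : ℂ} : l ∈ Upp h ↔ h < l.im := Iff.rfl

theorem isOpen_Upp (h : ℝ) : IsOpen (Upp h) := isOpen_lt continuous_const continuous_im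

theorem convex_Upp (h : ℝ) : Convex ℝ (Upp h) := convex_halfSpace_im_gt h

/-- constant of the law -/
noncomputable def TT (n : ℕ) : ℂ := 2 * ((n : ℂ) + 1) / n

/-- an extension of `q` to the half plane `Im l > h` with values in the region -/
structure Ex (n : ℕ) (L : ℝ) (q : ℂ → ℂ) (h : ℝ) (Q : ℂ → ℂ) : Prop where
  dif : DifferentiableOn ℂ Q (Upp h)
  mem : ∀ l ∈ Upp h, Q l ∈ RR n
  eq : ∀ l ∈ Upp h, (L < l.re ∨ l.re < -L) → Q l = q l

theorem norm_gt_of_re {L : ℝ} {l : ℂ} (h : L < l.re ∨ l.re < -L) : L < ‖l‖ := by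
  have h1 := abs_re_le_norm l
  rcases h with h | h
  · exact lt_of_lt_of_le h ((le_abs_self _).trans h1)
  · exact lt_of_lt_of_le (by linarith) ((neg_le_abs _).trans h1)

/-- two extensions agree -/
theorem Ex.unique {n : ℕ} {L : ℝ} {q Q Q' : ℂ → ℂ} {h h' : ℝ} (hQ : Ex n L q h Q)
    (hQ' : Ex n L q h' Q') : ∀ l : ℂ, h < l.im → h' < l.im → Q l = Q' l := by
  intro l h1 h2
  set H := max h h' with hH
  have hd : DifferentiableOn ℂ Q (Upp H) := hQ.dif.mono fun l (hl : H < l.im) =>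
    show h < l.im from lt_of_le_of_lt (le_max_left _ _) hl
  have hd' : DifferentiableOn ℂ Q' (Upp H) := hQ'.dif.mono fun l (hl : H < l.im) =>
    show h' < l.im from lt_of_le_of_lt (le_max_right _ _) hl
  set z : ℂ := ⟨L + 1, H + 1⟩ with hz
  have hz1 : z ∈ Upp H := by
    show H < z.im
    simp [hz]
  have hev : Q =ᶠ[𝓝 z] Q' := by
    have o1 : {l : ℂ | L < l.re} ∈ 𝓝 z :=
      (isOpen_lt continuous_const continuous_re).mem_nhds (by simp [hz])
    filter_upwards [o1, (isOpen_Upp H).mem_nhds hz1] with w w1 w2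
    have w3 : H < w.im := w2
    rw [hQ.eq w (show h < w.im from lt_of_le_of_lt (le_max_left _ _) w3) (Or.inl w1),
      hQ'.eq w (show h' < w.im from lt_of_le_of_lt (le_max_right _ _) w3) (Or.inl w1)]
  exact (hd.analyticOnNhd (isOpen_Upp H)).eqOn_of_preconnected_of_eventuallyEq
    (hd'.analyticOnNhd (isOpen_Upp H)) (convex_Upp H).isPreconnected hz1 hev
    (max_lt h1 h2)

section law

variable {n : ℕ} {l₀ L : ℝ} {q Q : ℂ → ℂ} {h : ℝ}

theorem Gf_comp_diff (hn : 2 ≤ n) {Q : ℂ → ℂ} {l : ℂ} (hQ : DifferentiableAt ℂ Q l)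
    (hS : Q l ∈ SC n) : DifferentiableAt ℂ (fun l => Gf n (Q l)) l :=
  DifferentiableAt.comp l (Gf_differentiableAt (P_ne' hn hS)) hQ

theorem Gf_inv_comp_diff (hn : 2 ≤ n) {Q : ℂ → ℂ} {l : ℂ} (hQ : DifferentiableAt ℂ Q l)
    (hS : Q l ∈ SC n) (h0 : Q l ≠ 0) : DifferentiableAt ℂ (fun l => Gf n (Q l)⁻¹) l :=
  DifferentiableAt.comp l (f := fun l => (Q l)⁻¹) (Gf_differentiableAt (P_inv_ne hn hS h0))
    (hQ.inv h0)

theorem Ex.law (hq : QF n l₀ q) (hL : l₀ + 1 < L) (hQ : Ex n L q h Q) :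
    ∀ l ∈ Upp h, Gf n (Q l) + Gf n (Q (l + 1))⁻¹ = TT n := by
  have hn := hq.hn
  have hd : DifferentiableOn ℂ (fun l => Gf n (Q l) + Gf n (Q (l + 1))⁻¹) (Upp h) := by
    intro l hl
    apply DifferentiableAt.differentiableWithinAt
    have hl1 : l + 1 ∈ Upp h := by
      simpa using hl
    have d1 : DifferentiableAt ℂ Q l := hQ.dif.differentiableAt ((isOpen_Upp h).mem_nhds hl)
    have d2 : DifferentiableAt ℂ Q (l + 1) :=
      hQ.dif.differentiableAt ((isOpen_Upp h).mem_nhds hl1)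
    have m1 := RR_sub_CR n (hQ.mem l hl)
    have m2 := RR_sub_CR n (hQ.mem _ hl1)
    have d3 : DifferentiableAt ℂ (fun l => Q (l + 1)) l :=
      DifferentiableAt.comp l (f := fun l : ℂ => l + 1) d2 (differentiableAt_id.add_const 1)
    exact (Gf_comp_diff hn d1 m1.1).add (Gf_inv_comp_diff hn d3 m2.1 m2.2.1)
  set z : ℂ := ⟨L + 1, h + 1⟩ with hz
  have hz1 : z ∈ Upp h := by
    show h < z.im
    simp [hz]
  have hev : (fun l => Gf n (Q l) + Gf n (Q (l + 1))⁻¹) =ᶠ[𝓝 z] fun _ => TT n := by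
    have o1 : {l : ℂ | L < l.re} ∈ 𝓝 z :=
      (isOpen_lt continuous_const continuous_re).mem_nhds (by simp [hz])
    filter_upwards [o1, (isOpen_Upp h).mem_nhds hz1] with w w1 w2
    have w3 : w + 1 ∈ Upp h := by
      simpa using w2
    have w4 : L < (w + 1).re := by
      have : L < w.re := w1
      simp
      linarith
    rw [hQ.eq w w2 (Or.inl w1), hQ.eq (w + 1) w3 (Or.inl w4)]
    have := hq.eq w (hL.trans (norm_gt_of_re (Or.inl w1)))
    rw [one_div] at this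
    exact this
  intro l hl
  exact (hd.analyticOnNhd (isOpen_Upp h)).eqOn_of_preconnected_of_eventuallyEq
    (analyticOnNhd_const) (convex_Upp h).isPreconnected hz1 hev hl

/-- every point of the line is in the closure of the half plane -/
theorem mem_closure_Upp {l₀ : ℂ} (hl : l₀.im = h) : l₀ ∈ closure (Upp h) := by
  rw [Metric.mem_closure_iff]
  intro ε hε
  refine ⟨l₀ + (ε / 2 : ℝ) * I, ?_, ?_⟩
  · show h < (l₀ + (ε / 2 : ℝ) * I).im
    simp [hl]
    linarith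
  · rw [dist_eq_norm]
    simp
    rw [abs_of_pos hε]
    linarith

/-- conjugate sector -/
def SC' (n : ℕ) : Set ℂ := {x | conj x ∈ SC n}

theorem isClosed_SC' (n : ℕ) : IsClosed (SC' n) := (isClosed_SC n).preimage continuous_conj

theorem SC'_P (hn : 2 ≤ n) {x : ℂ} (hx : x ∈ SC' n) : P n x ≠ 0 := by
  have h1 := P_ne' hn hx
  rw [P_conj] at h1
  exact fun h => h1 (by rw [h, map_zero])

theorem inv_mem_of_SC' (hn : 2 ≤ n) {x : ℂ} (hx : x ∈ SC' n) (h0 : x ≠ 0) : x⁻¹ ∈ SC n := by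
  have h1 := conj_inv_SC hn hx (by simpa using h0)
  simpa using h1

theorem SC'_d (hn : 2 ≤ n) {x : ℂ} (hx : x ∈ SC' n) (h0 : x ≠ 0) : deriv (Gf n) x ≠ 0 := by
  have h1 := deriv_Gf_inv_ne hn (inv_mem_of_SC' hn hx h0) (inv_ne_zero h0)
  rwa [inv_inv] at h1

/-- boundary behaviour at a point of the line `Im l = h` -/
def BB (n : ℕ) (h : ℝ) (Q : ℂ → ℂ) (l : ℂ) : Prop :=
  ∃ r > 0, ∃ g : ℂ → ℂ, DifferentiableOn ℂ g (ball l r) ∧
    (∀ z ∈ Upp h, z ∈ ball l r → g z = Q z) ∧ g l ∈ CR n ∧ ¬ ∃ t : ℝ, 1 ≤ t ∧ g l = t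

theorem n_real {n : ℕ} (hn : 2 ≤ n) : (0 : ℝ) < n := by exact_mod_cast (by omega : 0 < n)

theorem TT_eq (n : ℕ) : TT n = ((2 * ((n : ℝ) + 1) / n : ℝ) : ℂ) := by
  rw [TT]
  push_cast
  rfl

theorem tend_of {Q g : ℂ → ℂ} {l : ℂ} {r : ℝ} (hr : 0 < r)
    (hg : DifferentiableOn ℂ g (ball l r)) (he : ∀ z ∈ Upp h, z ∈ ball l r → g z = Q z) :
    Tendsto Q (𝓝[Upp h] l) (𝓝 (g l)) := by
  have h1 : Tendsto g (𝓝[Upp h] l) (𝓝 (g l)) :=
    ((hg.differentiableAt (isOpen_ball.mem_nhds (mem_ball_self hr))).continuousAt).mono_left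
      nhdsWithin_le_nhds
  refine h1.congr' ?_
  filter_upwards [self_mem_nhdsWithin, nhdsWithin_le_nhds (ball_mem_nhds l hr)] with z z1 z2
  exact he z z1 z2

theorem law_lim (hn : 2 ≤ n) (hlaw : ∀ l ∈ Upp h, Gf n (Q l) + Gf n (Q (l + 1))⁻¹ = TT n)
    {l v w : ℂ} (hl : l.im = h) (h1 : Tendsto Q (𝓝[Upp h] l) (𝓝 v))
    (h2 : Tendsto Q (𝓝[Upp h] (l + 1)) (𝓝 w)) (hv : v ∈ SC n) (hw : w ∈ SC n) (hw0 : w ≠ 0) :
    Gf n v + Gf n w⁻¹ = TT n := by
  haveI : NeBot (𝓝[Upp h] l) := mem_closure_iff_nhdsWithin_neBot.1 (mem_closure_Upp hl)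
  have t1 : Tendsto (fun l => Gf n (Q l)) (𝓝[Upp h] l) (𝓝 (Gf n v)) :=
    (Gf_continuousAt (P_ne' hn hv)).tendsto.comp h1
  have t0 : Tendsto (fun l : ℂ => l + 1) (𝓝[Upp h] l) (𝓝[Upp h] (l + 1)) := by
    apply tendsto_nhdsWithin_of_tendsto_nhds_of_eventually_within
    · exact (Continuous.tendsto (by fun_prop) l).mono_left nhdsWithin_le_nhds
    · filter_upwards [self_mem_nhdsWithin] with z hz
      simpa using hz
  have t2 : Tendsto (fun l => Gf n (Q (l + 1))⁻¹) (𝓝[Upp h] l) (𝓝 (Gf n w⁻¹)) := by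
    have a1 : Tendsto (fun l => (Q (l + 1))⁻¹) (𝓝[Upp h] l) (𝓝 w⁻¹) := (h2.comp t0).inv₀ hw0
    exact (Gf_continuousAt (P_inv_ne hn hw hw0)).tendsto.comp a1
  have t3 := t1.add t2
  have t4 : Tendsto (fun l => Gf n (Q l) + Gf n (Q (l + 1))⁻¹) (𝓝[Upp h] l) (𝓝 (TT n)) := by
    refine tendsto_const_nhds.congr' ?_
    filter_upwards [self_mem_nhdsWithin] with z hz
    exact (hlaw z hz).symm
  exact tendsto_nhds_unique t3 t4

theorem closure_mem (hn : 2 ≤ n) (hm : ∀ l ∈ Upp h, Q l ∈ RR n) {l v : ℂ} (hl : l.im = h)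
    (h1 : Tendsto Q (𝓝[Upp h] l) (𝓝 v)) (hv : v ≠ 0) : v ∈ CR n := by
  haveI : NeBot (𝓝[Upp h] l) := mem_closure_iff_nhdsWithin_neBot.1 (mem_closure_Upp hl)
  have hS : v ∈ SC n := by
    refine (isClosed_SC n).mem_of_tendsto h1 ?_
    filter_upwards [self_mem_nhdsWithin] with z hz
    exact (RR_sub_CR n (hm z hz)).1
  refine ⟨hS, hv, ?_, ?_⟩
  · have t1 : Tendsto (fun l => (Gf n (Q l)).im) (𝓝[Upp h] l) (𝓝 (Gf n v).im) :=
      (continuous_im.tendsto _).comp ((Gf_continuousAt (P_ne' hn hS)).tendsto.comp h1)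
    refine ge_of_tendsto t1 ?_
    filter_upwards [self_mem_nhdsWithin] with z hz
    exact (hm z hz).2.2.1.le
  · have t1 : Tendsto (fun l => (Gf n (Q l)⁻¹).im) (𝓝[Upp h] l) (𝓝 (Gf n v⁻¹).im) :=
      (continuous_im.tendsto _).comp
        ((Gf_continuousAt (P_inv_ne hn hS hv)).tendsto.comp (h1.inv₀ hv))
    refine le_of_tendsto t1 ?_
    filter_upwards [self_mem_nhdsWithin] with z hz
    exact (hm z hz).2.2.2.le

/-- one step to the right -/
theorem BB_step (hn : 2 ≤ n) (hd : DifferentiableOn ℂ Q (Upp h)) (hm : ∀ l ∈ Upp h, Q l ∈ RR n)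
    (hlaw : ∀ l ∈ Upp h, Gf n (Q l) + Gf n (Q (l + 1))⁻¹ = TT n) {l : ℂ} (hl : l.im = h)
    (hB : BB n h Q l) : BB n h Q (l + 1) := by
  have hn0 := n_real hn
  obtain ⟨r, hr, g, hg, hgQ, hgC, hgR⟩ := hB
  -- shrink so that the denominator does not vanish
  have hgc : ContinuousAt g l :=
    (hg.differentiableAt (isOpen_ball.mem_nhds (mem_ball_self hr))).continuousAt
  have hPc : ∀ᶠ z in 𝓝 l, P n (g z) ≠ 0 := by
    have : ContinuousAt (fun z => P n (g z)) l :=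
      ContinuousAt.comp (g := P n) ((differentiable_P n).continuous.continuousAt) hgc
    exact this.eventually_ne (P_ne' hn hgC.1)
  obtain ⟨r1, hr1, hr1P⟩ := Metric.eventually_nhds_iff_ball.1 hPc
  set ρ := min r r1 with hρ
  have hρ0 : 0 < ρ := lt_min hr hr1
  set F : ℂ → ℂ := fun z => TT n - Gf n (g (z - 1)) with hF
  have hmap : ∀ z ∈ ball (l + 1) ρ, z - 1 ∈ ball l ρ := by
    intro z hz
    rw [mem_ball, dist_eq_norm] at hz ⊢
    rwa [show z - 1 - l = z - (l + 1) by ring]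
  have hFd : DifferentiableOn ℂ F (ball (l + 1) ρ) := by
    intro z hz
    have hz' := hmap z hz
    have a1 : DifferentiableAt ℂ g (z - 1) :=
      hg.differentiableAt (isOpen_ball.mem_nhds (ball_subset_ball (min_le_left _ _) hz'))
    have a2 := Gf_differentiableAt (hr1P _ (ball_subset_ball (min_le_right _ _) hz'))
    have a3 : DifferentiableAt ℂ (fun z => g (z - 1)) z :=
      DifferentiableAt.comp z (f := fun z : ℂ => z - 1) a1 (differentiableAt_id.sub_const 1)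
    have a4 : DifferentiableAt ℂ (fun z => Gf n (g (z - 1))) z :=
      DifferentiableAt.comp z (f := fun z => g (z - 1)) a2 a3
    exact (a4.const_sub _).differentiableWithinAt
  have hUm : ∀ z ∈ Upp h, z - 1 ∈ Upp h := by
    intro z hz
    simpa using hz
  have he : ∀ z ∈ Upp h, z ∈ ball (l + 1) ρ → Gf n (Q z)⁻¹ = F z := by
    intro z hz1 hz2
    have := hlaw (z - 1) (hUm z hz1)
    rw [sub_add_cancel] at this
    rw [hF]
    simp only []
    rw [hgQ (z - 1) (hUm z hz1) (ball_subset_ball (min_le_left _ _) (hmap z hz2)), ← this]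
    ring
  have hFl : F (l + 1) = TT n - Gf n (g l) := by
    rw [hF]
    simp only []
    rw [add_sub_cancel_right]
  -- `F (l + 1) ≠ 1`
  have h1n : (1 : ℝ) < (n + 1) / n := by
    rw [lt_div_iff₀ hn0]
    linarith
  have hreal : ∀ v : ℝ, Gf n (g l) = v → (n + 1 : ℝ) / n ≤ v → False := by
    intro v hv hvle
    obtain ⟨t, ht, hgt, htv⟩ := real_of_gt hn hgC.1 hgC.2.1 hv (by linarith)
    apply hgR
    refine ⟨t, ?_, hgt⟩
    rw [← gR_le_iff hn zero_le_one ht.le, gR_one hn, htv]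
    exact hvle
  have hTT2 : (2 * ((n : ℝ) + 1) / n : ℝ) = (n + 1) / n + (n + 1) / n := by ring
  have hF1 : F (l + 1) ≠ 1 := by
    intro h1
    rw [hFl] at h1
    have h2 : Gf n (g l) = ((2 * ((n : ℝ) + 1) / n - 1 : ℝ) : ℂ) := by
      push_cast
      rw [show Gf n (g l) = TT n - 1 by rw [← h1]; ring, TT]
    refine hreal _ h2 ?_
    rw [hTT2]
    linarith
  have hcl : l + 1 ∈ closure (Upp h) := mem_closure_Upp (by simpa using hl)
  have hxS : ∀ z ∈ Upp h, z ∈ ball (l + 1) ρ → (Q z)⁻¹ ∈ SC' n := by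
    intro z hz _
    have := RR_sub_CR n (hm z hz)
    exact conj_inv_SC hn this.1 this.2.1
  have hxd : DifferentiableOn ℂ (fun z => (Q z)⁻¹) (Upp h ∩ ball (l + 1) ρ) := by
    intro z hz
    have h3 := RR_sub_CR n (hm z hz.1)
    exact ((hd.differentiableAt ((isOpen_Upp h).mem_nhds hz.1)).inv h3.2.1).differentiableWithinAt
  obtain ⟨r', hr', hr'ρ, gx, c1, c2, c3, c4, c5⟩ := cont hn (isClosed_SC' n)
    (fun x hx => SC'_P hn hx) (fun x hx h0 => SC'_d hn hx h0) (isOpen_Upp h) (convex_Upp h) hcl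
    hρ0 hxd hxS hFd he hF1
  -- shrink so that `gx ≠ 0`
  have hgxc : ContinuousAt gx (l + 1) :=
    (c1.differentiableAt (isOpen_ball.mem_nhds (mem_ball_self hr'))).continuousAt
  obtain ⟨r2, hr2, hr2x⟩ := Metric.eventually_nhds_iff_ball.1 (hgxc.eventually_ne c4)
  set s := min r' r2 with hs
  have hs0 : 0 < s := lt_min hr' hr2
  have hg'd : DifferentiableOn ℂ (fun z => (gx z)⁻¹) (ball (l + 1) s) := by
    intro z hz
    have a1 := c1.differentiableAt (isOpen_ball.mem_nhds (ball_subset_ball (min_le_left _ _) hz))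
    exact (a1.inv (hr2x _ (ball_subset_ball (min_le_right _ _) hz))).differentiableWithinAt
  have hg'Q : ∀ z ∈ Upp h, z ∈ ball (l + 1) s → (gx z)⁻¹ = Q z := by
    intro z hz1 hz2
    rw [c2 z hz1 (ball_subset_ball (min_le_left _ _) hz2), inv_inv]
  refine ⟨s, hs0, fun z => (gx z)⁻¹, hg'd, hg'Q, ?_, ?_⟩
  · exact closure_mem hn hm (l := l + 1) (by simpa using hl)
      (tend_of (g := fun z => (gx z)⁻¹) hs0 hg'd hg'Q) (inv_ne_zero c4)
  · rintro ⟨t, ht, htx⟩
    have ht0 : 0 < t := by linarith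
    have h3 : gx (l + 1) = ((t⁻¹ : ℝ) : ℂ) := by
      have : (gx (l + 1))⁻¹ = (t : ℂ) := htx
      rw [ofReal_inv, ← this, inv_inv]
    have h4 := c5 (l + 1) (mem_ball_self hr')
    rw [h3, Gf_real hn (inv_pos.2 ht0).le, hFl] at h4
    have h5 : gR n t⁻¹ ≤ (n + 1) / n := by
      rw [← gR_one hn, gR_le_iff hn (inv_pos.2 ht0).le zero_le_one]
      exact inv_le_one_of_one_le₀ ht
    have h6 : Gf n (g l) = ((2 * ((n : ℝ) + 1) / n - gR n t⁻¹ : ℝ) : ℂ) := by
      push_cast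
      rw [h4, TT]
      ring
    refine hreal _ h6 ?_
    rw [hTT2]
    linarith

end law

end Vale.Agent.P097.H536.T8
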