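import Vale.Agent.P097.H536.T8.Ext

/-! # P097 / TRIG-T8, part 6: extension of the ratio function to `Im l > 0` -/

set_option linter.all false

open Complex Metric Filter Topology Set
open scoped ComplexConjugate

namespace Vale.Agent.P097.H536.T8

open Vale.Agent.P097.H536

variable {n : ℕ} {l₀ L : ℝ} {q Q : ℂ → ℂ} {h : ℝ}

theorem q_diff (hq : QF n l₀ q) (hL : l₀ + 1 < L) {z : ℂ} (hz : L < z.re ∨ z.re < -L) :
    DifferentiableAt ℂ q z := by
  have ho : IsOpen {l : ℂ | l₀ < ‖l‖} := isOpen_lt continuous_const continuous_norm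
  refine hq.hol.differentiableAt (ho.mem_nhds ?_)
  have := norm_gt_of_re hz
  show l₀ < ‖z‖
  linarith

/-- two functions that agree with `Q` on the upper part agree on a convex set -/
theorem eqOn_convex {B : Set ℂ} (hB : IsOpen B) (hc : Convex ℝ B) {f g : ℂ → ℂ}
    (hf : DifferentiableOn ℂ f B) (hg : DifferentiableOn ℂ g B) {w : ℂ} (hw : w ∈ B)
    (hwh : h < w.im) (he : ∀ z ∈ B, h < z.im → f z = g z) : ∀ z ∈ B, f z = g z := by
  have hev : f =ᶠ[𝓝 w] g := by
    filter_upwards [hB.mem_nhds hw, (isOpen_Upp h).mem_nhds hwh] with z z1 z2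
    exact he z z1 z2
  intro z hz
  exact (hf.analyticOnNhd hB).eqOn_of_preconnected_of_eventuallyEq (hg.analyticOnNhd hB)
    hc.isPreconnected hw hev hz

theorem BB_left (hq : QF n l₀ q) (hL : l₀ + 1 < L)
    (hA : ∀ l : ℂ, L < ‖l‖ → 0 < l.im → q l ∈ RR n) (hQ : Ex n L q h Q) (hh : 0 < h) {l : ℂ}
    (hl : l.im = h) (hre : l.re < -L) : BB n h Q l := by
  have hqR : q l ∈ RR n := hA l (norm_gt_of_re (Or.inr hre)) (by rw [hl]; exact hh)
  refine ⟨-L - l.re, by linarith, q, ?_, ?_, RR_sub_CR n hqR, ?_⟩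
  · intro z hz
    apply (q_diff hq hL (Or.inr ?_)).differentiableWithinAt
    rw [mem_ball, dist_eq_norm] at hz
    have h1 := (abs_re_le_norm (z - l)).trans_lt hz
    rw [sub_re] at h1
    linarith [(abs_lt.1 h1).2]
  · intro z hz1 hz
    refine (hQ.eq z hz1 (Or.inr ?_)).symm
    rw [mem_ball, dist_eq_norm] at hz
    have h1 := (abs_re_le_norm (z - l)).trans_lt hz
    rw [sub_re] at h1
    linarith [(abs_lt.1 h1).2]
  · rintro ⟨t, _, ht⟩
    have := hqR.1
    rw [ht, ofReal_im] at this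
    exact lt_irrefl _ this

theorem BB_all (hq : QF n l₀ q) (hL : l₀ + 1 < L)
    (hA : ∀ l : ℂ, L < ‖l‖ → 0 < l.im → q l ∈ RR n) (hQ : Ex n L q h Q) (hh : 0 < h) {l : ℂ}
    (hl : l.im = h) : BB n h Q l := by
  obtain ⟨N, hN⟩ := exists_nat_gt (l.re + L)
  have key : ∀ k : ℕ, BB n h Q (l - N + k) := by
    intro k
    induction k with
    | zero =>
      apply BB_left hq hL hA hQ hh
      · simpa using hl
      · simp
        linarith
    | succ k ih =>
      have := BB_step hq.hn hQ.dif hQ.mem (hQ.law hq hL) (l := l - N + k) (by simpa using hl) ih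
      have e : l - N + ((k + 1 : ℕ) : ℂ) = l - N + k + 1 := by push_cast; ring
      rw [e]
      exact this
  have := key N
  rwa [sub_add_cancel] at this

theorem BB_lim {l : ℂ} (hB : BB n h Q l) : ∃ v ∈ CR n, Tendsto Q (𝓝[Upp h] l) (𝓝 v) ∧
    ¬ ∃ t : ℝ, 1 ≤ t ∧ v = t := by
  obtain ⟨r, hr, g, hg, hgQ, hgC, hgR⟩ := hB
  exact ⟨g l, hgC, tend_of hr hg hgQ, hgR⟩

theorem TT_real (n : ℕ) : (2 * ((n : ℝ) + 1) / n : ℝ) = (n + 1) / n + (n + 1) / n := by ring

/-- forward step -/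
theorem fw_step (hn : 2 ≤ n)
    (hlaw : ∀ l ∈ Upp h, Gf n (Q l) + Gf n (Q (l + 1))⁻¹ = TT n) {l v v' : ℂ} (hl : l.im = h)
    (h1 : Tendsto Q (𝓝[Upp h] l) (𝓝 v)) (h2 : Tendsto Q (𝓝[Upp h] (l + 1)) (𝓝 v'))
    (hv : v ∈ CR n) (hv' : v' ∈ CR n) {w : ℝ} (hw : Gf n v = w) (hwlt : w < (n + 1) / n) :
    ∃ w' : ℝ, Gf n v' = w' ∧ w' < (n + 1) / n := by
  have hn0 := n_real hn
  have h1n : (1 : ℝ) < (n + 1) / n := by
    rw [lt_div_iff₀ hn0]
    linarith
  have h3 := law_lim hn hlaw hl h1 h2 hv.1 hv'.1 hv'.2.1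
  have h4 : Gf n v'⁻¹ = ((2 * ((n : ℝ) + 1) / n - w : ℝ) : ℂ) := by
    rw [ofReal_sub, ← TT_eq, ← h3, hw]
    ring
  have h5 : Gf n (conj v'⁻¹) = ((2 * ((n : ℝ) + 1) / n - w : ℝ) : ℂ) := by
    rw [Gf_conj, h4, conj_ofReal]
  rw [TT_real] at h5
  obtain ⟨t, ht, htv, hgt⟩ := real_of_gt hn (conj_inv_SC hn hv'.1 hv'.2.1)
    (by simpa using hv'.2.1) h5 (by linarith)
  have ht1 : 1 < t := by
    rw [← gR_lt_iff hn zero_le_one ht.le, gR_one hn, hgt]
    linarith
  have hv't : v' = ((t⁻¹ : ℝ) : ℂ) := by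
    have := congrArg conj htv
    rw [conj_conj, conj_ofReal] at this
    rw [ofReal_inv, ← this, inv_inv]
  refine ⟨gR n t⁻¹, ?_, ?_⟩
  · rw [hv't, Gf_real hn (inv_pos.2 ht).le]
  · rw [← gR_one hn, gR_lt_iff hn (inv_pos.2 ht).le zero_le_one]
    exact inv_lt_one_of_one_lt₀ ht1

theorem no_fw (hq : QF n l₀ q) (hL : l₀ + 1 < L)
    (hA : ∀ l : ℂ, L < ‖l‖ → 0 < l.im → q l ∈ RR n) (hQ : Ex n L q h Q) (hh : 0 < h) {l v : ℂ}
    (hl : l.im = h) (h1 : Tendsto Q (𝓝[Upp h] l) (𝓝 v)) (hv : v ∈ CR n) {w : ℝ}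
    (hw : Gf n v = w) (hwlt : w < (n + 1) / n) : False := by
  have key : ∀ k : ℕ, ∃ v ∈ CR n, Tendsto Q (𝓝[Upp h] (l + k)) (𝓝 v) ∧
      ∃ w : ℝ, Gf n v = w ∧ w < (n + 1) / n := by
    intro k
    induction k with
    | zero =>
      refine ⟨v, hv, ?_, w, hw, hwlt⟩
      simpa using h1
    | succ k ih =>
      obtain ⟨v, hv, h2, w, hw, hwlt⟩ := ih
      have e : l + ((k + 1 : ℕ) : ℂ) = l + k + 1 := by push_cast; ring
      obtain ⟨v', hv', h3, -⟩ := BB_lim (BB_all hq hL hA hQ hh (l := l + k + 1) (by simpa using hl))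
      obtain ⟨w', a1, a2⟩ := fw_step hq.hn (hQ.law hq hL) (l := l + k) (by simpa using hl) h2 h3
        hv hv' hw hwlt
      rw [e]
      exact ⟨v', hv', h3, w', a1, a2⟩
  obtain ⟨N, hN⟩ := exists_nat_gt (L - l.re)
  obtain ⟨v, hv, h2, w, hw, -⟩ := key N
  have hre : L < (l + N).re := by
    simp
    linarith
  have hqc : Tendsto q (𝓝[Upp h] (l + N)) (𝓝 (q (l + N))) :=
    ((q_diff hq hL (Or.inl hre)).continuousAt.tendsto).mono_left nhdsWithin_le_nhds
  have hqQ : Tendsto Q (𝓝[Upp h] (l + N)) (𝓝 (q (l + N))) := by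
    refine hqc.congr' ?_
    have o1 : {z : ℂ | L < z.re} ∈ 𝓝 (l + N) :=
      (isOpen_lt continuous_const continuous_re).mem_nhds hre
    filter_upwards [self_mem_nhdsWithin, nhdsWithin_le_nhds o1] with z z1 z2
    exact (hQ.eq z z1 (Or.inl z2)).symm
  haveI : NeBot (𝓝[Upp h] (l + N)) :=
    mem_closure_iff_nhdsWithin_neBot.1 (mem_closure_Upp (by simpa using hl))
  have hvq : v = q (l + N) := tendsto_nhds_unique h2 hqQ
  have hR : v ∈ RR n := by
    rw [hvq]
    refine hA _ (norm_gt_of_re (Or.inl hre)) ?_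
    simp [hl, hh]
  have := hR.2.2.1
  rw [hw, ofReal_im] at this
  exact lt_irrefl _ this

/-- the boundary values lie in the open region -/
theorem lim_RR (hq : QF n l₀ q) (hL : l₀ + 1 < L)
    (hA : ∀ l : ℂ, L < ‖l‖ → 0 < l.im → q l ∈ RR n) (hQ : Ex n L q h Q) (hh : 0 < h) {l v : ℂ}
    (hl : l.im = h) (h1 : Tendsto Q (𝓝[Upp h] l) (𝓝 v)) (hv : v ∈ CR n) : v ∈ RR n := by
  have hn := hq.hn
  have hn0 := n_real hn
  have h1n : (1 : ℝ) < (n + 1) / n := by
    rw [lt_div_iff₀ hn0]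
    linarith
  by_contra hR
  rcases bdry_class hn hv hR with ⟨w, hw, hwlt⟩ | ⟨w, hw, hwle⟩
  · exact no_fw hq hL hA hQ hh hl h1 hv hw hwlt
  · obtain ⟨v', hv', h3, hre⟩ := BB_lim (BB_all hq hL hA hQ hh (l := l - 1) (by simpa using hl))
    have h4 := law_lim hn (hQ.law hq hL) (l := l - 1) (by simpa using hl) h3
      (by rw [sub_add_cancel]; exact h1) hv'.1 hv.1 hv.2.1
    have h5 : Gf n v' = ((2 * ((n : ℝ) + 1) / n - w : ℝ) : ℂ) := by
      rw [ofReal_sub, ← TT_eq, ← h4, hw]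
      ring
    rw [TT_real] at h5
    obtain ⟨t, ht, htv, hgt⟩ := real_of_gt hn hv'.1 hv'.2.1 h5 (by linarith)
    apply hre
    refine ⟨t, ?_, htv⟩
    rw [← gR_le_iff hn zero_le_one ht.le, gR_one hn, hgt]
    linarith

/-- good radius -/
def Gd (n : ℕ) (Q : ℂ → ℂ) (h : ℝ) (l : ℂ) (r : ℝ) : Prop :=
  ∃ g : ℂ → ℂ, DifferentiableOn ℂ g (ball l r) ∧ (∀ z ∈ Upp h, z ∈ ball l r → g z = Q z) ∧
    ∀ z ∈ ball l r, g z ∈ RR n

theorem exists_Gd (hq : QF n l₀ q) (hL : l₀ + 1 < L)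
    (hA : ∀ l : ℂ, L < ‖l‖ → 0 < l.im → q l ∈ RR n) (hQ : Ex n L q h Q) (hh : 0 < h) {l : ℂ}
    (hl : l.im = h) : ∃ r > 0, Gd n Q h l r := by
  obtain ⟨r, hr, g, hg, hgQ, hgC, hgR⟩ := BB_all hq hL hA hQ hh hl
  have h1 : g l ∈ RR n := lim_RR hq hL hA hQ hh hl (tend_of hr hg hgQ) hgC
  have hgc : ContinuousAt g l :=
    (hg.differentiableAt (isOpen_ball.mem_nhds (mem_ball_self hr))).continuousAt
  obtain ⟨r1, hr1, h2⟩ := Metric.eventually_nhds_iff_ball.1
    (hgc.eventually ((isOpen_RR hq.hn).mem_nhds h1))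
  refine ⟨min r r1, lt_min hr hr1, g, hg.mono (ball_subset_ball (min_le_left _ _)), ?_, ?_⟩
  · intro z hz1 hz2
    exact hgQ z hz1 (ball_subset_ball (min_le_left _ _) hz2)
  · intro z hz
    exact h2 z (ball_subset_ball (min_le_right _ _) hz)

theorem Gd.mono {l : ℂ} {r : ℝ} (hG : Gd n Q h l r) {l' : ℂ} {r' : ℝ}
    (hs : ball l' r' ⊆ ball l r) : Gd n Q h l' r' := by
  obtain ⟨g, a1, a2, a3⟩ := hG
  exact ⟨g, a1.mono hs, fun z z1 z2 => a2 z z1 (hs z2), fun z hz => a3 z (hs hz)⟩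

theorem unif_Gd (hq : QF n l₀ q) (hL : l₀ + 1 < L)
    (hA : ∀ l : ℂ, L < ‖l‖ → 0 < l.im → q l ∈ RR n) (hQ : Ex n L q h Q) (hh : 0 < h) :
    ∃ ε > 0, ε ≤ h ∧ ∀ l : ℂ, l.im = h → Gd n Q h l ε := by
  classical
  have hall : ∀ l : ℂ, l.im = h → ∃ r > 0, Gd n Q h l r := fun l hl =>
    exists_Gd hq hL hA hQ hh hl
  choose! rad hrad hGd using hall
  set K : Set ℂ := (fun x : ℝ => (⟨x, h⟩ : ℂ)) '' Icc (-(L + 1)) (L + 1) with hK
  have hKc : IsCompact K := by
    apply isCompact_Icc.image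
    have : (fun x : ℝ => (⟨x, h⟩ : ℂ)) = fun x : ℝ => (x : ℂ) + (h : ℂ) * I := by
      funext x
      exact Complex.mk_eq_add_mul_I x h
    rw [this]
    fun_prop
  obtain ⟨δ, hδ, hδ2⟩ := lebesgue_number_lemma_of_metric (s := K) (ι := K)
    (c := fun l : K => ball (l : ℂ) (rad l)) hKc (fun _ => isOpen_ball) (by
      intro l hl
      obtain ⟨x, hx, rfl⟩ := hl
      exact mem_iUnion.2 ⟨⟨_, ⟨x, hx, rfl⟩⟩, mem_ball_self (hrad _ rfl)⟩)
  refine ⟨min δ (min 1 h), lt_min hδ (lt_min one_pos hh),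
    (min_le_right _ _).trans (min_le_right _ _), ?_⟩
  intro l hl
  by_cases hx : l.re ∈ Icc (-(L + 1)) (L + 1)
  · have hlK : l ∈ K := ⟨l.re, hx, by rw [← hl]⟩
    obtain ⟨i, hi⟩ := hδ2 l hlK
    have hi' : ((i : ℂ)).im = h := by
      obtain ⟨x, _, hx⟩ := i.2
      rw [← hx]
    exact (hGd i hi').mono ((ball_subset_ball (min_le_left _ _)).trans hi)
  · have hre : ∀ z ∈ ball l (min δ (min 1 h)), (L < z.re ∨ z.re < -L) ∧ 0 < z.im := by
      intro z hz
      rw [mem_ball, dist_eq_norm] at hz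
      have h1 := (abs_re_le_norm (z - l)).trans_lt hz
      have h2 := (abs_im_le_norm (z - l)).trans_lt hz
      rw [sub_re] at h1
      rw [sub_im, hl] at h2
      have h3 : |z.re - l.re| < 1 :=
        h1.trans_le ((min_le_right _ _).trans (min_le_left _ _))
      have h4 : |z.im - h| < h := h2.trans_le ((min_le_right _ _).trans (min_le_right _ _))
      obtain ⟨a1, a2⟩ := abs_lt.1 h3
      obtain ⟨b1, b2⟩ := abs_lt.1 h4
      refine ⟨?_, by linarith⟩
      by_contra hcon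
      push Not at hcon
      apply hx
      constructor <;> linarith [hcon.1, hcon.2]
    refine ⟨q, ?_, ?_, ?_⟩
    · intro z hz
      exact (q_diff hq hL (hre z hz).1).differentiableWithinAt
    · intro z hz1 hz2
      exact (hQ.eq z hz1 (hre z hz2).1).symm
    · intro z hz
      exact hA z (norm_gt_of_re (hre z hz).1) (hre z hz).2

/-- extension below the line -/
theorem Ex_below (hq : QF n l₀ q) (hL : l₀ + 1 < L)
    (hA : ∀ l : ℂ, L < ‖l‖ → 0 < l.im → q l ∈ RR n) (hQ : Ex n L q h Q) (hh : 0 < h) :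
    ∃ h' : ℝ, 0 < h' ∧ h' < h ∧ ∃ Q' : ℂ → ℂ, Ex n L q h' Q' := by
  classical
  obtain ⟨ε, hε, hεh, hG⟩ := unif_Gd hq hL hA hQ hh
  choose! G G1 G2 G3 using hG
  set pr : ℂ → ℂ := fun z => ⟨z.re, h⟩ with hpr
  have hpri : ∀ z, (pr z).im = h := fun z => rfl
  have hprr : ∀ z, (pr z).re = z.re := fun z => rfl
  have hdist : ∀ z : ℂ, h - ε / 2 < z.im → z.im ≤ h → z ∈ ball (pr z) ε := by
    intro z h1 h2
    rw [mem_ball, dist_eq_norm]
    have e : z - pr z = ((z.im - h : ℝ) : ℂ) * I := by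
      apply Complex.ext <;> simp [hpr]
    rw [e, norm_mul, norm_I, mul_one, norm_real, Real.norm_eq_abs, abs_lt]
    constructor <;> linarith
  refine ⟨h - ε / 2, by linarith, by linarith,
    fun z => if h < z.im then Q z else G (pr z) z, ?_, ?_, ?_⟩
  · intro z hz
    rw [mem_Upp] at hz
    apply DifferentiableAt.differentiableWithinAt
    by_cases hzh : h < z.im
    · have h1 : DifferentiableAt ℂ Q z := hQ.dif.differentiableAt ((isOpen_Upp h).mem_nhds hzh)
      refine h1.congr_of_eventuallyEq ?_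
      filter_upwards [(isOpen_Upp h).mem_nhds hzh] with w hw
      exact if_pos hw
    · push Not at hzh
      have hzb := hdist z hz hzh
      have h1 : DifferentiableAt ℂ (G (pr z)) z :=
        (G1 (pr z) (hpri z)).differentiableAt (isOpen_ball.mem_nhds hzb)
      refine h1.congr_of_eventuallyEq ?_
      have o1 : {w : ℂ | |w.re - z.re| < ε / 2} ∈ 𝓝 z := by
        have : IsOpen {w : ℂ | |w.re - z.re| < ε / 2} :=
          isOpen_lt (by fun_prop) continuous_const
        exact this.mem_nhds (by simpa using hε)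
      filter_upwards [isOpen_ball.mem_nhds hzb, o1, (isOpen_Upp (h - ε / 2)).mem_nhds hz]
        with w w1 w2 w3
      rw [mem_Upp] at w3
      by_cases hwh : h < w.im
      · rw [if_pos hwh]
        exact (G2 (pr z) (hpri z) w hwh w1).symm
      · rw [if_neg hwh]
        push Not at hwh
        have hwb := hdist w w3 hwh
        set m : ℂ := ⟨(z.re + w.re) / 2, h + ε / 4⟩ with hm
        have w2' : |w.re - z.re| < ε / 2 := w2
        have hmem : ∀ p : ℂ, (p.re = z.re ∨ p.re = w.re) → p.im = h → m ∈ ball p ε := by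
          intro p hp1 hp2
          rw [mem_ball, dist_eq_norm]
          have e1 : ‖m - p‖ ≤ |(m - p).re| + |(m - p).im| := norm_le_abs_re_add_abs_im _
          have e2 : (m - p).im = ε / 4 := by
            rw [sub_im, hp2, hm]
            ring
          have e3 : |(m - p).re| < ε / 4 := by
            rw [sub_re, hm]
            rw [abs_lt] at w2' ⊢
            rcases hp1 with h | h <;> rw [h] <;> constructor <;> linarith [w2'.1, w2'.2]
          rw [e2, abs_of_pos (by positivity : 0 < ε / 4)] at e1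
          linarith
        exact eqOn_convex (h := h) (isOpen_ball.inter isOpen_ball)
          ((convex_ball (pr w) ε).inter (convex_ball (pr z) ε))
          ((G1 (pr w) (hpri w)).mono inter_subset_left)
          ((G1 (pr z) (hpri z)).mono inter_subset_right)
          (w := m) ⟨hmem (pr w) (Or.inr rfl) rfl, hmem (pr z) (Or.inl rfl) rfl⟩
          (by rw [hm]; simp; exact hε)
          (fun y hy1 hy2 => by
            rw [G2 (pr w) (hpri w) y hy2 hy1.1, G2 (pr z) (hpri z) y hy2 hy1.2])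
          w ⟨hwb, w1⟩
  · intro z hz
    rw [mem_Upp] at hz
    by_cases hzh : h < z.im
    · rw [if_pos hzh]
      exact hQ.mem z hzh
    · rw [if_neg hzh]
      push Not at hzh
      exact G3 (pr z) (hpri z) z (hdist z hz hzh)
  · intro z hz hre
    rw [mem_Upp] at hz
    by_cases hzh : h < z.im
    · rw [if_pos hzh]
      exact hQ.eq z hzh hre
    · rw [if_neg hzh]
      push Not at hzh
      have hzb := hdist z hz hzh
      set m : ℂ := ⟨z.re, h + ε / 4⟩ with hm
      have hmb : m ∈ ball (pr z) ε := by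
        rw [mem_ball, dist_eq_norm]
        have e : m - pr z = ((ε / 4 : ℝ) : ℂ) * I := by
          apply Complex.ext <;> simp [hpr, hm]
        rw [e, norm_mul, norm_I, mul_one, norm_real, Real.norm_of_nonneg (by positivity)]
        linarith
      rcases hre with hre | hre
      · exact eqOn_convex (h := h) (B := ball (pr z) ε ∩ {w : ℂ | L < w.re})
          (isOpen_ball.inter (isOpen_lt continuous_const continuous_re))
          ((convex_ball _ _).inter (convex_halfSpace_re_gt L))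
          ((G1 (pr z) (hpri z)).mono inter_subset_left)
          (fun w hw => (q_diff hq hL (Or.inl hw.2)).differentiableWithinAt)
          (w := m) ⟨hmb, hre⟩ (by rw [hm]; simp; exact hε)
          (fun y hy1 hy2 => by
            rw [G2 (pr z) (hpri z) y hy2 hy1.1, hQ.eq y hy2 (Or.inl hy1.2)])
          z ⟨hzb, hre⟩
      · exact eqOn_convex (h := h) (B := ball (pr z) ε ∩ {w : ℂ | w.re < -L})
          (isOpen_ball.inter (isOpen_lt continuous_re continuous_const))
          ((convex_ball _ _).inter (convex_halfSpace_re_lt (-L)))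
          ((G1 (pr z) (hpri z)).mono inter_subset_left)
          (fun w hw => (q_diff hq hL (Or.inr hw.2)).differentiableWithinAt)
          (w := m) ⟨hmb, hre⟩ (by rw [hm]; simp; exact hε)
          (fun y hy1 hy2 => by
            rw [G2 (pr z) (hpri z) y hy2 hy1.1, hQ.eq y hy2 (Or.inr hy1.2)])
          z ⟨hzb, hre⟩

/-- **the ratio function extends to the upper half plane with values in the region** -/
theorem Ex_zero (hq : QF n l₀ q) (hL : l₀ + 1 < L)
    (hA : ∀ l : ℂ, L < ‖l‖ → 0 < l.im → q l ∈ RR n) : ∃ Q : ℂ → ℂ, Ex n L q 0 Q := by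
  classical
  have hl := hq.hl
  set S : Set ℝ := {h | 0 < h ∧ ∃ Q, Ex n L q h Q} with hS
  have hSne : L ∈ S := by
    refine ⟨by linarith, q, ?_, ?_, ?_⟩
    · intro z hz
      have hz' : L < z.im := hz
      have h1 : L < ‖z‖ := hz'.trans_le ((le_abs_self _).trans (abs_im_le_norm z))
      have ho : IsOpen {l : ℂ | l₀ < ‖l‖} := isOpen_lt continuous_const continuous_norm
      exact (hq.hol.differentiableAt (ho.mem_nhds (by show l₀ < ‖z‖; linarith))).differentiableWithinAt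
    · intro z hz
      have hz' : L < z.im := hz
      have h1 : L < ‖z‖ := hz'.trans_le ((le_abs_self _).trans (abs_im_le_norm z))
      exact hA z h1 (by linarith)
    · intro z _ _
      rfl
  have hbdd : BddBelow S := ⟨0, fun h hh => hh.1.le⟩
  set h₀ := sInf S with hh₀
  have h₀0 : 0 ≤ h₀ := le_csInf ⟨L, hSne⟩ fun h hh => hh.1.le
  -- glue
  have hex : ∀ z : ℂ, h₀ < z.im → ∃ h Q, h ∈ S ∧ h < z.im ∧ Ex n L q h Q := by
    intro z hz
    obtain ⟨h, hhS, hlt⟩ := (csInf_lt_iff hbdd ⟨L, hSne⟩).1 hz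
    obtain ⟨Q, hQ⟩ := hhS.2
    exact ⟨h, Q, hhS, hlt, hQ⟩
  choose! H QQ c1 c2 c3 using hex
  have hglue : Ex n L q h₀ (fun z => QQ z z) := by
    have hev : ∀ z : ℂ, h₀ < z.im → ∀ᶠ w in 𝓝 z, QQ w w = QQ z w := by
      intro z hz
      filter_upwards [(isOpen_Upp (H z)).mem_nhds (c2 z hz), (isOpen_Upp h₀).mem_nhds hz]
        with w w1 w2
      exact (c3 w w2).unique (c3 z hz) w (c2 w w2) w1
    refine ⟨?_, ?_, ?_⟩
    · intro z hz
      have h1 : DifferentiableAt ℂ (QQ z) z :=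
        (c3 z hz).dif.differentiableAt ((isOpen_Upp _).mem_nhds (c2 z hz))
      exact (h1.congr_of_eventuallyEq (hev z hz)).differentiableWithinAt
    · intro z hz
      exact (c3 z hz).mem z (c2 z hz)
    · intro z hz hre
      exact (c3 z hz).eq z (c2 z hz) hre
  rcases h₀0.eq_or_lt with h1 | h1
  · rw [← h1] at hglue
    exact ⟨_, hglue⟩
  · exfalso
    obtain ⟨h', a1, a2, Q', a3⟩ := Ex_below hq hL hA hglue h1
    have : h₀ ≤ h' := csInf_le hbdd ⟨a1, Q', a3⟩
    linarith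

end Vale.Agent.P097.H536.T8
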