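import Vale.Agent.P097.H536.T8.Ext2

/-! # P097 / TRIG-T8, part 7: the real axis; there is no ratio function -/

set_option linter.all false

open Complex Metric Filter Topology Set
open scoped ComplexConjugate

namespace Vale.Agent.P097.H536.T8

open Vale.Agent.P097.H536

variable {n : ℕ} {l₀ L : ℝ} {q Q : ℂ → ℂ}

theorem real_mem_SC (hn : 2 ≤ n) {t : ℝ} (ht : 0 ≤ t) : (t : ℂ) ∈ SC n := by
  have h1 : pol t 0 ∈ SC n := pol_mem_SC hn ht le_rfl (al_pos n).le
  have e : pol t 0 = (t : ℂ) := by simp [pol]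
  rwa [e] at h1

/-- good real points -/
def Gr (Q : ℂ → ℂ) (y : ℝ) : Prop :=
  ∃ r > 0, ∃ g : ℂ → ℂ, DifferentiableOn ℂ g (ball (y : ℂ) r) ∧
    (∀ z ∈ Upp 0, z ∈ ball (y : ℂ) r → g z = Q z) ∧ ∃ t : ℝ, 0 < t ∧ t < 1 ∧ g y = t

theorem neBot_real (y : ℝ) : NeBot (𝓝[Upp 0] (y : ℂ)) :=
  mem_closure_iff_nhdsWithin_neBot.1 (mem_closure_Upp (ofReal_im y))

theorem Gr_lim {y : ℝ} (hG : Gr Q y) : ∃ t : ℝ, 0 < t ∧ t < 1 ∧
    Tendsto Q (𝓝[Upp 0] (y : ℂ)) (𝓝 (t : ℂ)) := by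
  obtain ⟨r, hr, g, hg, hgQ, t, ht0, ht1, hgt⟩ := hG
  refine ⟨t, ht0, ht1, ?_⟩
  rw [← hgt]
  exact tend_of hr hg hgQ

theorem Gr_right (hq : QF n l₀ q) (hL : l₀ + 1 < L) (hQ : Ex n L q 0 Q)
    (hP : ∀ x : ℝ, L < x → ∃ t : ℝ, 0 < t ∧ t < 1 ∧ q x = t) {y : ℝ} (hy : L < y) : Gr Q y := by
  have hre : ∀ z ∈ ball (y : ℂ) (y - L), L < z.re := by
    intro z hz
    rw [mem_ball, dist_eq_norm] at hz
    have h1 := (abs_re_le_norm (z - y)).trans_lt hz
    rw [sub_re, ofReal_re] at h1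
    linarith [(abs_lt.1 h1).1]
  refine ⟨y - L, by linarith, q, ?_, ?_, hP y hy⟩
  · intro z hz
    exact (q_diff hq hL (Or.inl (hre z hz))).differentiableWithinAt
  · intro z hz1 hz2
    exact (hQ.eq z hz1 (Or.inl (hre z hz2))).symm

theorem not_Gr_left (hq : QF n l₀ q) (hL : l₀ + 1 < L) (hQ : Ex n L q 0 Q)
    (hN : ∀ x : ℝ, x < -L → ∃ t : ℝ, 1 < t ∧ q x = t) {y : ℝ} (hy : y < -L) : ¬ Gr Q y := by
  intro hG
  haveI := neBot_real y
  obtain ⟨t, ht0, ht1, h1⟩ := Gr_lim hG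
  obtain ⟨s, hs, hqs⟩ := hN y hy
  have hqc : Tendsto q (𝓝[Upp 0] (y : ℂ)) (𝓝 (q y)) :=
    ((q_diff hq hL (Or.inr (by simpa using hy))).continuousAt.tendsto).mono_left nhdsWithin_le_nhds
  have hqQ : Tendsto Q (𝓝[Upp 0] (y : ℂ)) (𝓝 (q y)) := by
    refine hqc.congr' ?_
    have o1 : {z : ℂ | z.re < -L} ∈ 𝓝 (y : ℂ) :=
      (isOpen_lt continuous_re continuous_const).mem_nhds (by simpa using hy)
    filter_upwards [self_mem_nhdsWithin, nhdsWithin_le_nhds o1] with z z1 z2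
    exact (hQ.eq z z1 (Or.inr z2)).symm
  have h2 := tendsto_nhds_unique h1 hqQ
  rw [hqs] at h2
  have h3 : t = s := by exact_mod_cast h2
  linarith

/-- the equation to the left of a good point -/
theorem left_eq (hn : 2 ≤ n)
    (hlaw : ∀ l ∈ Upp 0, Gf n (Q l) + Gf n (Q (l + 1))⁻¹ = TT n) {y r : ℝ} (hr : 0 < r)
    {g : ℂ → ℂ} (hg : DifferentiableOn ℂ g (ball (y : ℂ) r))
    (hgQ : ∀ z ∈ Upp 0, z ∈ ball (y : ℂ) r → g z = Q z) {t : ℝ} (ht : 0 < t) (hgt : g y = t) :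
    ∃ ρ > 0, ρ ≤ r ∧ ∃ F : ℂ → ℂ, DifferentiableOn ℂ F (ball ((y : ℂ) - 1) ρ) ∧
      (∀ z ∈ Upp 0, z ∈ ball ((y : ℂ) - 1) ρ → Gf n (Q z) = F z) ∧
      ∀ z, F z = TT n - Gf n (g (z + 1))⁻¹ := by
  have htS := real_mem_SC hn ht.le
  have ht0 : (t : ℂ) ≠ 0 := by exact_mod_cast ht.ne'
  have hgc : ContinuousAt g y :=
    (hg.differentiableAt (isOpen_ball.mem_nhds (mem_ball_self hr))).continuousAt
  have h1 : ∀ᶠ z in 𝓝 (y : ℂ), g z ≠ 0 ∧ P n (g z)⁻¹ ≠ 0 := by
    have a1 : ∀ᶠ z in 𝓝 (y : ℂ), g z ≠ 0 := hgc.eventually_ne (by rw [hgt]; exact ht0)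
    have a2 : ContinuousAt (fun z => P n (g z)⁻¹) y :=
      ContinuousAt.comp (g := P n) ((differentiable_P n).continuous.continuousAt)
        (hgc.inv₀ (by rw [hgt]; exact ht0))
    have a3 : ∀ᶠ z in 𝓝 (y : ℂ), P n (g z)⁻¹ ≠ 0 :=
      a2.eventually_ne (by rw [hgt]; exact P_inv_ne hn htS ht0)
    exact a1.and a3
  obtain ⟨r1, hr1, hr1P⟩ := Metric.eventually_nhds_iff_ball.1 h1
  have hmap : ∀ z ∈ ball ((y : ℂ) - 1) (min r r1), z + 1 ∈ ball (y : ℂ) (min r r1) := by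
    intro z hz
    rw [mem_ball, dist_eq_norm] at hz ⊢
    rwa [show z + 1 - (y : ℂ) = z - (y - 1) by ring]
  refine ⟨min r r1, lt_min hr hr1, min_le_left _ _, fun z => TT n - Gf n (g (z + 1))⁻¹, ?_, ?_,
    fun z => rfl⟩
  · intro z hz
    have hz' := hmap z hz
    have a1 : DifferentiableAt ℂ g (z + 1) :=
      hg.differentiableAt (isOpen_ball.mem_nhds (ball_subset_ball (min_le_left _ _) hz'))
    have a2 := hr1P _ (ball_subset_ball (min_le_right _ _) hz')
    have a3 : DifferentiableAt ℂ (fun z => g (z + 1)) z :=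
      DifferentiableAt.comp z (f := fun z : ℂ => z + 1) a1 (differentiableAt_id.add_const 1)
    have a4 : DifferentiableAt ℂ (fun z => (g (z + 1))⁻¹) z := a3.inv a2.1
    have a5 : DifferentiableAt ℂ (fun z => Gf n (g (z + 1))⁻¹) z :=
      DifferentiableAt.comp z (f := fun z => (g (z + 1))⁻¹) (Gf_differentiableAt a2.2) a4
    exact (a5.const_sub _).differentiableWithinAt
  · intro z hz1 hz2
    have h2 : z + 1 ∈ Upp 0 := by simpa using hz1
    have := hlaw z hz1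
    simp only []
    rw [hgQ (z + 1) h2 (ball_subset_ball (min_le_left _ _) (hmap z hz2)), ← this]
    ring

theorem growth_real (hn : 2 ≤ n) {t : ℝ} (ht : 0 < t) (ht8 : t < 1 / 8) : 4 < gR n t⁻¹ := by
  have h1 : 8 < t⁻¹ := by
    rw [lt_inv_comm₀ (by norm_num) ht]
    norm_num at ht8 ⊢
    exact ht8
  have h2 := Gf_growth hn (x := ((t⁻¹ : ℝ) : ℂ)) (by
    rw [norm_real, Real.norm_of_nonneg (by positivity)]
    linarith)
  rw [Gf_real hn (by positivity), norm_real, norm_real,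
    Real.norm_of_nonneg (by positivity : (0 : ℝ) ≤ t⁻¹),
    Real.norm_of_nonneg (by linarith [gR_ge_one hn (by positivity : (0 : ℝ) ≤ t⁻¹)])] at h2
  linarith

/-- **TRIG-T8: there is no ratio function** -/
theorem t8 : T8 := by
  intro n l₀ q hq
  have hn := hq.hn
  have hn0 := n_real hn
  have hn2 : (2 : ℝ) ≤ n := by exact_mod_cast hn
  have h1n : (1 : ℝ) < (n + 1) / n := by
    rw [lt_div_iff₀ hn0]
    linarith
  have hT3 : (2 * ((n : ℝ) + 1) / n : ℝ) ≤ 3 := by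
    rw [div_le_iff₀ hn0]
    linarith
  obtain ⟨L, hL, hA, hP, hN⟩ := asy hq
  obtain ⟨Q, hQ⟩ := Ex_zero hq hL hA
  have hlaw := hQ.law hq hL
  have hl := hq.hl
  set A : Set ℝ := {x | ∀ y : ℝ, x < y → Gr Q y} with hAd
  have hAne : A.Nonempty := ⟨L, fun y hy => Gr_right hq hL hQ hP hy⟩
  have hbdd : BddBelow A := by
    refine ⟨-L - 1, fun x hx => ?_⟩
    by_contra hlt
    push Not at hlt
    exact not_Gr_left hq hL hQ hN (y := -L - 1 / 2) (by linarith) (hx _ (by linarith))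
  set x₀ := sInf A with hx₀
  have hgood : ∀ y : ℝ, x₀ < y → Gr Q y := by
    intro y hy
    obtain ⟨x, hx, hxy⟩ := (csInf_lt_iff hbdd hAne).1 hy
    exact hx y hxy
  -- boundary values on `(x₀, ∞)`
  have hval : ∀ y : ℝ, x₀ < y → ∃ t : ℝ, 0 < t ∧ t < 1 ∧
      Tendsto Q (𝓝[Upp 0] (y : ℂ)) (𝓝 (t : ℂ)) := fun y hy => Gr_lim (hgood y hy)
  choose! v hv0 hv1 hvt using hval
  -- the law between boundary values
  have hvlaw : ∀ y : ℝ, x₀ < y → gR n (v y) = 2 * ((n : ℝ) + 1) / n - gR n (v (y + 1))⁻¹ := by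
    intro y hy
    have hy1 : x₀ < y + 1 := by linarith
    have a1 := hvt (y + 1) hy1
    rw [ofReal_add, ofReal_one] at a1
    have h1 := law_lim hn hlaw (l := (y : ℂ)) (ofReal_im y) (hvt y hy) a1
      (real_mem_SC hn (hv0 y hy).le) (real_mem_SC hn (hv0 _ hy1).le)
      (by exact_mod_cast (hv0 _ hy1).ne')
    rw [Gf_real hn (hv0 y hy).le, ← ofReal_inv, Gf_real hn (inv_pos.2 (hv0 _ hy1)).le, TT_eq,
      ← ofReal_add] at h1
    have h2 : gR n (v y) + gR n (v (y + 1))⁻¹ = 2 * ((n : ℝ) + 1) / n := by exact_mod_cast h1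
    linarith
  -- the point `x₀ + 1`
  obtain ⟨r, hr, g, hg, hgQ, t₁, ht10, ht11, hgt₁⟩ := hgood (x₀ + 1) (by linarith)
  obtain ⟨ρ, hρ, hρr, F, hFd, hFe, hFdef⟩ := left_eq hn hlaw hr hg hgQ ht10 hgt₁
  have ex : (((x₀ + 1 : ℝ) : ℂ) - 1) = (x₀ : ℂ) := by push_cast; ring
  rw [ex] at hFd hFe
  -- `g` at real points near `x₀ + 1`
  have hgv : ∀ y : ℝ, x₀ < y + 1 → |y - x₀| < r → g ((y : ℂ) + 1) = (v (y + 1) : ℂ) := by
    intro y hy1 hy2
    haveI := neBot_real (y + 1)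
    have hmem : ((y + 1 : ℝ) : ℂ) ∈ ball ((x₀ + 1 : ℝ) : ℂ) r := by
      rw [mem_ball, dist_eq_norm, ← ofReal_sub, norm_real, Real.norm_eq_abs]
      rwa [show y + 1 - (x₀ + 1) = y - x₀ by ring]
    have h1 : Tendsto g (𝓝[Upp 0] ((y + 1 : ℝ) : ℂ)) (𝓝 (g ((y + 1 : ℝ) : ℂ))) :=
      ((hg.differentiableAt (isOpen_ball.mem_nhds hmem)).continuousAt).mono_left nhdsWithin_le_nhds
    have h2 : Tendsto Q (𝓝[Upp 0] ((y + 1 : ℝ) : ℂ)) (𝓝 (g ((y + 1 : ℝ) : ℂ))) := by
      refine h1.congr' ?_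
      filter_upwards [self_mem_nhdsWithin, nhdsWithin_le_nhds (isOpen_ball.mem_nhds hmem)]
        with z z1 z2
      exact hgQ z z1 z2
    have h3 := tendsto_nhds_unique h2 (hvt (y + 1) hy1)
    rw [← h3]
    push_cast
    rfl
  have hFv : ∀ y : ℝ, x₀ < y + 1 → |y - x₀| < r →
      F y = ((2 * ((n : ℝ) + 1) / n - gR n (v (y + 1))⁻¹ : ℝ) : ℂ) := by
    intro y hy1 hy2
    rw [hFdef, hgv y hy1 hy2, ← ofReal_inv, Gf_real hn (inv_pos.2 (hv0 _ hy1)).le, TT_eq,
      ← ofReal_sub]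
  set f₀ : ℝ := 2 * ((n : ℝ) + 1) / n - gR n (v (x₀ + 1))⁻¹ with hf₀
  have hF0 : F x₀ = (f₀ : ℂ) := hFv x₀ (by linarith) (by simpa using hr)
  have hf₀lt : f₀ < (n + 1) / n := by
    have h1 : gR n 1 < gR n (v (x₀ + 1))⁻¹ := by
      rw [gR_lt_iff hn zero_le_one (inv_pos.2 (hv0 _ (by linarith))).le]
      exact (one_lt_inv₀ (hv0 _ (by linarith))).2 (hv1 _ (by linarith))
    rw [gR_one hn] at h1
    rw [hf₀, TT_real]
    linarith
  -- continuity of the real part along the reals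
  have hFc : ContinuousAt F x₀ :=
    (hFd.differentiableAt (isOpen_ball.mem_nhds (mem_ball_self hρ))).continuousAt
  have hφ : ContinuousAt (fun y : ℝ => (F y).re) x₀ :=
    continuous_re.continuousAt.comp
      (ContinuousAt.comp (f := fun y : ℝ => (y : ℂ)) hFc continuous_ofReal.continuousAt)
  have hφ0 : (fun y : ℝ => (F y).re) x₀ = f₀ := by
    show (F x₀).re = f₀
    rw [hF0, ofReal_re]
  have hf₀ge : 1 ≤ f₀ := by
    by_contra hlt
    push Not at hlt
    have h1 : ∀ᶠ y : ℝ in 𝓝 x₀, (F y).re < 1 := hφ.eventually (gt_mem_nhds (by rw [hφ0]; exact hlt))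
    obtain ⟨δ, hδ, h2⟩ := Metric.eventually_nhds_iff_ball.1 h1
    set y := x₀ + min (δ / 2) (r / 2) with hy
    have hm : 0 < min (δ / 2) (r / 2) := lt_min (by positivity) (by positivity)
    have hyx : x₀ < y := by linarith
    have hyr : |y - x₀| < r := by
      rw [hy, add_sub_cancel_left, abs_of_pos hm]
      linarith [min_le_right (δ / 2) (r / 2)]
    have hyδ : y ∈ ball x₀ δ := by
      rw [mem_ball, Real.dist_eq, hy, add_sub_cancel_left, abs_of_pos hm]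
      linarith [min_le_left (δ / 2) (r / 2)]
    have h3 := h2 y hyδ
    rw [hFv y (by linarith) hyr, ofReal_re, ← hvlaw y hyx] at h3
    linarith [gR_ge_one hn (hv0 y hyx).le]
  rcases hf₀ge.eq_or_lt with hcase | hcase
  · -- small values: contradiction one step further left
    have h8 : f₀ < gR n (1 / 8) := by
      have h9 := gR_strictMono hn (le_refl (0 : ℝ)) (by norm_num : (0 : ℝ) < 1 / 8)
      rw [gR_zero hn] at h9
      linarith
    have h1 : ∀ᶠ y : ℝ in 𝓝 x₀, (F y).re < gR n (1 / 8) :=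
      hφ.eventually (gt_mem_nhds (by rw [hφ0]; exact h8))
    obtain ⟨δ, hδ, h2⟩ := Metric.eventually_nhds_iff_ball.1 h1
    set y := x₀ + min (δ / 2) (r / 2) with hy
    have hm : 0 < min (δ / 2) (r / 2) := lt_min (by positivity) (by positivity)
    have hyx : x₀ < y := by linarith
    have hyr : |y - x₀| < r := by
      rw [hy, add_sub_cancel_left, abs_of_pos hm]
      linarith [min_le_right (δ / 2) (r / 2)]
    have hyδ : y ∈ ball x₀ δ := by
      rw [mem_ball, Real.dist_eq, hy, add_sub_cancel_left, abs_of_pos hm]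
      linarith [min_le_left (δ / 2) (r / 2)]
    have h3 := h2 y hyδ
    rw [hFv y (by linarith) hyr, ofReal_re, ← hvlaw y hyx,
      gR_lt_iff hn (hv0 y hyx).le (by norm_num)] at h3
    obtain ⟨r', hr', g', hg', hgQ', t, ht0, ht1, hgt⟩ := hgood y hyx
    haveI := neBot_real y
    have htv : (t : ℂ) = (v y : ℂ) := by
      rw [← hgt]
      exact tendsto_nhds_unique (tend_of hr' hg' hgQ') (hvt y hyx)
    have htv' : t = v y := by exact_mod_cast htv
    obtain ⟨ρ', hρ', -, F', hFd', hFe', hFdef'⟩ := left_eq hn hlaw hr' hg' hgQ' ht0 hgt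
    have hF'v : F' ((y : ℂ) - 1) = ((2 * ((n : ℝ) + 1) / n - gR n t⁻¹ : ℝ) : ℂ) := by
      rw [hFdef', sub_add_cancel, hgt, ← ofReal_inv, Gf_real hn (inv_pos.2 ht0).le, TT_eq,
        ← ofReal_sub]
    have hcl : (y : ℂ) - 1 ∈ closure (Upp 0) := mem_closure_Upp (by simp)
    obtain ⟨x, hx, hGx, -⟩ := cluster hn (isClosed_SC n) (fun x hx => P_ne' hn hx) hcl hρ'
      (fun l hl _ => (RR_sub_CR n (hQ.mem l hl)).1)
      ((hFd'.differentiableAt (isOpen_ball.mem_nhds (mem_ball_self hρ'))).continuousAt) hFe'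
    rw [hF'v] at hGx
    have h4 := no_neg hn hx hGx
    have h5 := growth_real hn ht0 (by rw [htv']; exact h3)
    linarith
  · -- extension to the left: contradiction with the infimum
    have hF1 : F x₀ ≠ 1 := by
      rw [hF0]
      intro h
      have : f₀ = 1 := by exact_mod_cast h
      linarith
    have hcl : (x₀ : ℂ) ∈ closure (Upp 0) := mem_closure_Upp (ofReal_im x₀)
    have hQd : DifferentiableOn ℂ Q (Upp 0 ∩ ball (x₀ : ℂ) ρ) := hQ.dif.mono inter_subset_left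
    obtain ⟨r', hr', hr'ρ, k, c1, c2, c3, c4, c5⟩ := cont hn (isClosed_SC n)
      (fun x hx => P_ne' hn hx) (fun x hx h0 => deriv_Gf_ne hn hx h0) (isOpen_Upp 0)
      (convex_Upp 0) hcl hρ hQd (fun l hl _ => (RR_sub_CR n (hQ.mem l hl)).1) hFd hFe hF1
    have h1 : ∀ᶠ y : ℝ in 𝓝 x₀, 1 < (F y).re ∧ (F y).re < (n + 1) / n :=
      (hφ.eventually (lt_mem_nhds (by rw [hφ0]; exact hcase))).and
        (hφ.eventually (gt_mem_nhds (by rw [hφ0]; exact hf₀lt)))
    obtain ⟨δ, hδ, h2⟩ := Metric.eventually_nhds_iff_ball.1 h1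
    set ε := min (min δ r') (min r 1) with hε
    have hε0 : 0 < ε := lt_min (lt_min hδ hr') (lt_min hr one_pos)
    have hnear : ∀ y : ℝ, |y - x₀| < ε → Gr Q y := by
      intro y hy
      have e1 : |y - x₀| < δ := hy.trans_le ((min_le_left _ _).trans (min_le_left _ _))
      have e2 : |y - x₀| < r' := hy.trans_le ((min_le_left _ _).trans (min_le_right _ _))
      have e3 : |y - x₀| < r := hy.trans_le ((min_le_right _ _).trans (min_le_left _ _))
      have e4 : |y - x₀| < 1 := hy.trans_le ((min_le_right _ _).trans (min_le_right _ _))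
      have hy1 : x₀ < y + 1 := by linarith [(abs_lt.1 e4).1]
      have hyb : (y : ℂ) ∈ ball (x₀ : ℂ) r' := by
        rw [mem_ball, dist_eq_norm, ← ofReal_sub, norm_real, Real.norm_eq_abs]
        exact e2
      obtain ⟨a1, a2⟩ := h2 y (by rw [mem_ball, Real.dist_eq]; exact e1)
      have hFy := hFv y hy1 e3
      rw [hFy, ofReal_re] at a1 a2
      have hGk := c5 y hyb
      rw [hFy] at hGk
      -- a small ball around `y`
      obtain ⟨s, hs, hsub⟩ := Metric.isOpen_iff.1 isOpen_ball _ hyb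
      have hks : DifferentiableOn ℂ k (ball (y : ℂ) s) := c1.mono hsub
      have hkQ : ∀ z ∈ Upp 0, z ∈ ball (y : ℂ) s → k z = Q z :=
        fun z hz1 hz2 => c2 z hz1 (hsub hz2)
      haveI := neBot_real y
      have hkS : k y ∈ SC n := by
        refine (isClosed_SC n).mem_of_tendsto (tend_of hs hks hkQ) ?_
        filter_upwards [self_mem_nhdsWithin] with z hz
        exact (RR_sub_CR n (hQ.mem z hz)).1
      have hk0 : k y ≠ 0 := by
        intro h0
        rw [h0, Gf_zero hn] at hGk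
        have : (1 : ℝ) = 2 * ((n : ℝ) + 1) / n - gR n (v (y + 1))⁻¹ := by exact_mod_cast hGk
        linarith
      obtain ⟨t, ht, hkt, hgt⟩ := real_of_gt hn hkS hk0 hGk a1.le
      refine ⟨s, hs, k, hks, hkQ, t, ht, ?_, hkt⟩
      rw [← gR_lt_iff hn ht.le zero_le_one, gR_one hn, hgt]
      exact a2
    have hmem : x₀ - ε / 2 ∈ A := by
      intro y hy
      rcases lt_or_ge x₀ y with h | h
      · exact hgood y h
      · apply hnear
        rw [abs_lt]
        constructor <;> linarith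
    have := csInf_le hbdd hmem
    linarith

end Vale.Agent.P097.H536.T8

namespace Vale.Agent.P097.H536

/-- **TRIG-T8** -/
theorem t8 : T8 := T8.t8

end Vale.Agent.P097.H536
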