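import Vale.Agent.P097.H536.Defs

/-! # P097 / TRIG-T8, part 1: the function `G(x) = (1 - x^(n+1)) / (1 - x^n)` on the sector
`0 ≤ arg x ≤ 2 π / (n + 1)` -/

set_option linter.all false

open Complex Metric Filter Topology Set
open scoped ComplexConjugate

namespace Vale.Agent.P097.H536.T8

open Vale.Agent.P097.H536

/-- opening of the sector -/
noncomputable def al (n : ℕ) : ℝ := 2 * Real.pi / (n + 1)

theorem al_pos (n : ℕ) : 0 < al n := by
  unfold al
  positivity

theorem al_mul (n : ℕ) : ((n : ℝ) + 1) * al n = 2 * Real.pi := by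
  unfold al
  field_simp

theorem al_lt_pi {n : ℕ} (hn : 2 ≤ n) : al n < Real.pi := by
  have h1 : (2 : ℝ) ≤ n := by exact_mod_cast hn
  unfold al
  rw [div_lt_iff₀ (by positivity)]
  nlinarith [Real.pi_pos]

/-- partial geometric sum -/
noncomputable def P (n : ℕ) (x : ℂ) : ℂ := ∑ i ∈ Finset.range n, x ^ i

theorem Gf_eq (n : ℕ) (x : ℂ) : Gf n x = P (n + 1) x / P n x := rfl

theorem P_mul (n : ℕ) (x : ℂ) : P n x * (x - 1) = x ^ n - 1 := geom_sum_mul x n

theorem P_one (n : ℕ) : P n 1 = n := by simp [P]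

/-- the polar form -/
noncomputable def pol (r a : ℝ) : ℂ := r * exp (a * I)

theorem pol_re (r a : ℝ) : (pol r a).re = r * Real.cos a := by
  rw [pol, re_ofReal_mul, exp_ofReal_mul_I_re]

theorem pol_im (r a : ℝ) : (pol r a).im = r * Real.sin a := by
  rw [pol, im_ofReal_mul, exp_ofReal_mul_I_im]

theorem pol_pow (r a : ℝ) (k : ℕ) : pol r a ^ k = pol (r ^ k) (k * a) := by
  rw [pol, pol, mul_pow, ← exp_nat_mul]
  push_cast
  ring_nf

theorem norm_pol {r a : ℝ} (hr : 0 ≤ r) : ‖pol r a‖ = r := by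
  rw [pol, norm_mul, norm_exp_ofReal_mul_I, mul_one, norm_real, Real.norm_of_nonneg hr]

theorem pol_ne {r a : ℝ} (hr : 0 < r) : pol r a ≠ 0 := by
  intro h
  have := norm_pol (a := a) hr.le
  rw [h, norm_zero] at this
  exact hr.ne this

theorem pol_inv {r a : ℝ} (hr : 0 < r) : (pol r a)⁻¹ = conj (pol r⁻¹ a) := by
  rw [inv_eq_iff_eq_inv, pol, pol]
  rw [map_mul, conj_ofReal, ← exp_conj, map_mul, conj_ofReal, conj_I, mul_inv, ← exp_neg]
  push_cast
  rw [inv_inv]
  ring_nf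

/-- closed sector (with its vertex) -/
def SC (n : ℕ) : Set ℂ := {x | 0 ≤ x.im ∧ (x * exp (-(al n : ℂ) * I)).im ≤ 0}

theorem isClosed_SC (n : ℕ) : IsClosed (SC n) := by
  apply IsClosed.inter
  · exact isClosed_le continuous_const continuous_im
  · exact isClosed_le (continuous_im.comp (continuous_id.mul continuous_const)) continuous_const

theorem pol_mem_SC {n : ℕ} (hn : 2 ≤ n) {r a : ℝ} (hr : 0 ≤ r) (h0 : 0 ≤ a) (h1 : a ≤ al n) :
    pol r a ∈ SC n := by
  have h2 := al_lt_pi hn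
  constructor
  · rw [pol_im]
    exact mul_nonneg hr (Real.sin_nonneg_of_nonneg_of_le_pi h0 (by linarith))
  · have e : pol r a * exp (-(al n : ℂ) * I) = pol r (a - al n) := by
      rw [pol, pol, mul_assoc, ← exp_add]
      push_cast
      ring_nf
    rw [e, pol_im]
    exact mul_nonpos_of_nonneg_of_nonpos hr
      (Real.sin_nonpos_of_nonpos_of_neg_pi_le (by linarith) (by linarith))

theorem exists_pol {n : ℕ} (hn : 2 ≤ n) {x : ℂ} (hx : x ∈ SC n) (h0 : x ≠ 0) :
    ∃ r a : ℝ, 0 < r ∧ 0 ≤ a ∧ a ≤ al n ∧ x = pol r a := by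
  have h2 := al_lt_pi hn
  have h3 := al_pos n
  have hx1 : 0 ≤ x.arg := Complex.arg_nonneg_iff.2 hx.1
  have hx2 := Complex.arg_le_pi x
  have hx3 : 0 < ‖x‖ := norm_pos_iff.2 h0
  refine ⟨‖x‖, x.arg, hx3, hx1, ?_, ?_⟩
  · by_contra hlt
    push Not at hlt
    have e : x * exp (-(al n : ℂ) * I) = pol ‖x‖ (x.arg - al n) := by
      conv_lhs => rw [← norm_mul_exp_arg_mul_I x]
      rw [pol, mul_assoc, ← exp_add]
      push_cast
      ring_nf
    have h4 := hx.2
    rw [e, pol_im] at h4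
    have h5 : 0 < Real.sin (x.arg - al n) :=
      Real.sin_pos_of_pos_of_lt_pi (by linarith) (by linarith)
    nlinarith [mul_pos hx3 h5]
  · rw [pol, norm_mul_exp_arg_mul_I]

/-! ### The denominator -/

theorem pow_ne_one_of {n : ℕ} (hn : 2 ≤ n) {r a : ℝ} (hr : 0 < r) (h0 : 0 ≤ a) (h1 : a ≤ al n)
    (h : pol r a ≠ 1) : pol r a ^ n ≠ 1 := by
  intro he
  apply h
  have hn0 : (0 : ℝ) < n := by exact_mod_cast (by omega : 0 < n)
  have h2 := al_mul n
  have hnorm : r ^ n = 1 := by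
    have := congrArg norm he
    rwa [norm_pow, norm_pol hr.le, norm_one] at this
  have hr1 : r = 1 := (pow_eq_one_iff_of_nonneg hr.le (by omega)).1 hnorm
  rw [pol_pow, hnorm] at he
  have hre := congrArg re he
  rw [pol_re, one_re, one_mul] at hre
  have hlt : (n : ℝ) * a < 2 * Real.pi := by
    have h3 := al_pos n
    have h4 : (n : ℝ) * a ≤ n * al n := by gcongr
    have h5 : (n : ℝ) * al n < (n + 1) * al n := by gcongr; linarith
    linarith
  have ha : (n : ℝ) * a = 0 :=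
    (Real.cos_eq_one_iff_of_lt_of_lt (by nlinarith [Real.pi_pos, mul_nonneg hn0.le h0]) hlt).1 hre
  have ha0 : a = 0 := by
    rcases mul_eq_zero.1 ha with h | h
    · linarith
    · exact h
  rw [hr1, ha0, pol]
  simp

theorem P_ne {n : ℕ} (hn : 2 ≤ n) {x : ℂ} (hx : x ∈ SC n) (h0 : x ≠ 0) : P n x ≠ 0 := by
  obtain ⟨r, a, hr, ha0, ha1, rfl⟩ := exists_pol hn hx h0
  by_cases h1 : pol r a = 1
  · rw [h1, P_one]
    exact_mod_cast (by omega : n ≠ 0)
  · intro h
    apply pow_ne_one_of hn hr ha0 ha1 h1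
    have := P_mul n (pol r a)
    rw [h, zero_mul] at this
    exact (sub_eq_zero.1 this.symm)

theorem P_ne' {n : ℕ} (hn : 2 ≤ n) {x : ℂ} (hx : x ∈ SC n) : P n x ≠ 0 := by
  by_cases h0 : x = 0
  · rw [h0, P]
    rw [Finset.sum_eq_single 0]
    · simp
    · intro b _ hb
      exact zero_pow hb
    · intro h
      exact absurd (Finset.mem_range.2 (by omega)) h
  · exact P_ne hn hx h0

theorem P_conj (n : ℕ) (x : ℂ) : P n (conj x) = conj (P n x) := by
  simp [P, map_sum]

theorem Gf_conj (n : ℕ) (x : ℂ) : Gf n (conj x) = conj (Gf n x) := by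
  rw [Gf_eq, Gf_eq, P_conj, P_conj, map_div₀]

theorem Gf_div {n : ℕ} {x : ℂ} (h1 : x ≠ 1) : Gf n x = (x ^ (n + 1) - 1) / (x ^ n - 1) := by
  rw [Gf_eq, ← P_mul, ← P_mul, mul_div_mul_right _ _ (sub_ne_zero.2 h1)]

theorem Gf_one (n : ℕ) : Gf n 1 = (n + 1) / n := by
  rw [Gf_eq, P_one, P_one]
  push_cast
  rfl

/-! ### The imaginary part -/

/-- the sign of the imaginary part of `G` in polar coordinates -/
noncomputable def D (n : ℕ) (r a : ℝ) : ℝ :=
  r ^ (n + 1) * Real.sin a - r * Real.sin ((n + 1) * a) + Real.sin (n * a)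

theorem D_succ (n : ℕ) (r a : ℝ) : D (n + 1) r a =
    r * D n r a + Real.sin ((n + 1 : ℕ) * a) * (r ^ 2 - 2 * r * Real.cos a + 1) := by
  have e1 : Real.sin ((((n + 1 : ℕ) : ℝ) + 1) * a) =
      2 * Real.cos a * Real.sin ((n + 1 : ℕ) * a) - Real.sin (n * a) := by
    have h1 : (((n + 1 : ℕ) : ℝ) + 1) * a = (n + 1 : ℕ) * a + a := by ring
    have h2 : (n : ℝ) * a = (n + 1 : ℕ) * a - a := by push_cast; ring
    rw [h1, h2, Real.sin_add, Real.sin_sub]
    ring
  rw [D, D, e1]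
  have e2 : ((n : ℝ) + 1) * a = (n + 1 : ℕ) * a := by push_cast; ring
  rw [e2]
  ring

theorem D_zero (r a : ℝ) : D 0 r a = 0 := by
  simp [D]

theorem quad_pos {r a : ℝ} (h0 : 0 < Real.sin a) : 0 < r ^ 2 - 2 * r * Real.cos a + 1 := by
  have := Real.sin_sq_add_cos_sq a
  nlinarith [sq_nonneg (r - Real.cos a), mul_pos h0 h0]

theorem D_pos {n : ℕ} (hn : 1 ≤ n) {r a : ℝ} (hr : 0 < r) (h0 : 0 < a)
    (h1 : (n : ℝ) * a ≤ Real.pi) (ha : a < Real.pi) : 0 < D n r a := by
  have hs : 0 < Real.sin a := Real.sin_pos_of_pos_of_lt_pi h0 ha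
  induction n, hn using Nat.le_induction with
  | base =>
    rw [D_succ, D_zero]
    simp only [mul_zero, zero_add, Nat.cast_one, one_mul]
    exact mul_pos hs (quad_pos hs)
  | succ n hn ih =>
    rw [D_succ]
    have h2 : (n : ℝ) * a ≤ Real.pi := by
      have : (n : ℝ) * a ≤ (n + 1 : ℕ) * a := by
        push_cast
        nlinarith
      linarith
    have h3 := mul_pos hr (ih h2)
    have h4 : 0 ≤ Real.sin ((n + 1 : ℕ) * a) :=
      Real.sin_nonneg_of_nonneg_of_le_pi (by positivity) h1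
    have h5 := mul_nonneg h4 (quad_pos (r := r) hs).le
    linarith

theorem Gf_im {n : ℕ} {r a : ℝ} (h1 : pol r a ≠ 1) (h2 : pol r a ^ n ≠ 1) :
    (Gf n (pol r a)).im = r ^ n * D n r a / normSq (pol r a ^ n - 1) := by
  rw [Gf_div h1, Complex.div_im, D]
  have e1 : (pol r a ^ (n + 1) - 1).im = r ^ (n + 1) * Real.sin ((n + 1) * a) := by
    rw [pol_pow, sub_im, one_im, sub_zero, pol_im]
    push_cast
    rfl
  have e2 : (pol r a ^ (n + 1) - 1).re = r ^ (n + 1) * Real.cos ((n + 1) * a) - 1 := by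
    rw [pol_pow, sub_re, one_re, pol_re]
    push_cast
    rfl
  have e3 : (pol r a ^ n - 1).im = r ^ n * Real.sin (n * a) := by
    rw [pol_pow, sub_im, one_im, sub_zero, pol_im]
  have e4 : (pol r a ^ n - 1).re = r ^ n * Real.cos (n * a) - 1 := by
    rw [pol_pow, sub_re, one_re, pol_re]
  rw [e1, e2, e3, e4]
  have e5 : Real.sin a = Real.sin ((n + 1) * a) * Real.cos (n * a) -
      Real.cos ((n + 1) * a) * Real.sin (n * a) := by
    rw [← Real.sin_sub]
    ring_nf
  rw [← sub_div]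
  congr 1
  rw [e5]
  ring

theorem normSq_pos' {n : ℕ} {x : ℂ} (h2 : x ^ n ≠ 1) : 0 < normSq (x ^ n - 1) :=
  normSq_pos.2 (sub_ne_zero.2 h2)

theorem Gf_im_pos_iff {n : ℕ} (hn : 2 ≤ n) {r a : ℝ} (hr : 0 < r) (h0 : 0 < a) (h1 : a ≤ al n) :
    0 < (Gf n (pol r a)).im ↔ 0 < D n r a := by
  have hne : pol r a ≠ 1 := by
    intro h
    have := congrArg im h
    rw [pol_im, one_im] at this
    have h2 := Real.sin_pos_of_pos_of_lt_pi h0 (by linarith [al_lt_pi hn])
    nlinarith [mul_pos hr h2]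
  have h3 := pow_ne_one_of hn hr h0.le h1 hne
  rw [Gf_im hne h3, div_pos_iff_of_pos_right (normSq_pos' h3), mul_pos_iff_of_pos_left (pow_pos hr n)]

theorem Gf_im_zero_iff {n : ℕ} (hn : 2 ≤ n) {r a : ℝ} (hr : 0 < r) (h0 : 0 < a) (h1 : a ≤ al n) :
    (Gf n (pol r a)).im = 0 ↔ D n r a = 0 := by
  have hne : pol r a ≠ 1 := by
    intro h
    have := congrArg im h
    rw [pol_im, one_im] at this
    have h2 := Real.sin_pos_of_pos_of_lt_pi h0 (by linarith [al_lt_pi hn])
    nlinarith [mul_pos hr h2]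
  have h3 := pow_ne_one_of hn hr h0.le h1 hne
  rw [Gf_im hne h3, div_eq_zero_iff]
  constructor
  · rintro (h | h)
    · exact (mul_eq_zero.1 h).resolve_left (pow_pos hr n).ne'
    · exact absurd h (normSq_pos' h3).ne'
  · intro h
    left
    rw [h, mul_zero]

/-- (G1) a real value in the open sector lies in `(0, 1)` -/
theorem G1 {n : ℕ} (hn : 2 ≤ n) {r a : ℝ} (hr : 0 < r) (h0 : 0 < a) (h1 : a < al n)
    (him : (Gf n (pol r a)).im = 0) : 0 < (Gf n (pol r a)).re ∧ (Gf n (pol r a)).re < 1 := by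
  have hpi := Real.pi_pos
  have hn1 : (2 : ℝ) ≤ n := by exact_mod_cast hn
  have hapi : a < Real.pi := h1.trans (al_lt_pi hn)
  have hs : 0 < Real.sin a := Real.sin_pos_of_pos_of_lt_pi h0 hapi
  have hD := (Gf_im_zero_iff hn hr h0 h1.le).1 him
  have hne : pol r a ≠ 1 := by
    intro h
    have := congrArg im h
    rw [pol_im, one_im] at this
    nlinarith [mul_pos hr hs]
  have h3 := pow_ne_one_of hn hr h0.le h1.le hne
  set κ : ℝ := (Gf n (pol r a)).re with hκ
  have hG : Gf n (pol r a) = (κ : ℂ) := by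
    apply Complex.ext
    · rw [ofReal_re]
    · rw [him, ofReal_im]
  rw [Gf_div hne, div_eq_iff (sub_ne_zero.2 h3)] at hG
  have hI := congrArg im hG
  rw [im_ofReal_mul, sub_im, sub_im, one_im, sub_zero, sub_zero, pol_pow, pol_pow, pol_im,
    pol_im] at hI
  push_cast at hI
  have hrn : 0 < r ^ n := pow_pos hr n
  have hI' : r * Real.sin ((n + 1) * a) = κ * Real.sin (n * a) := by
    have : r ^ n * (r * Real.sin ((n + 1) * a)) = r ^ n * (κ * Real.sin (n * a)) := by
      rw [pow_succ] at hI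
      linarith
    exact mul_left_cancel₀ hrn.ne' this
  have hna : Real.pi < n * a := by
    by_contra hle
    push Not at hle
    have := D_pos (by omega : 1 ≤ n) hr h0 hle hapi
    linarith
  have hna2 : ((n : ℝ) + 1) * a < 2 * Real.pi := by
    rw [← al_mul n]
    gcongr
  have s1 : Real.sin (n * a) < 0 := by
    have := Real.sin_pos_of_pos_of_lt_pi (x := n * a - Real.pi) (by linarith) (by nlinarith)
    rw [Real.sin_sub_pi] at this
    linarith
  have s2 : Real.sin ((n + 1) * a) < 0 := by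
    have := Real.sin_pos_of_pos_of_lt_pi (x := (n + 1) * a - Real.pi) (by nlinarith) (by linarith)
    rw [Real.sin_sub_pi] at this
    linarith
  constructor
  · by_contra hle
    push Not at hle
    nlinarith [mul_neg_of_pos_of_neg hr s2, mul_nonneg_of_nonpos_of_nonpos hle s1.le]
  · by_contra hle
    push Not at hle
    rw [D] at hD
    have h5 : 0 < r ^ (n + 1) * Real.sin a := mul_pos (pow_pos hr _) hs
    nlinarith [mul_nonneg_of_nonpos_of_nonpos (by linarith : 1 - κ ≤ 0) s1.le]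

/-- (G2) on the upper edge of the sector -/
theorem D_edge {n : ℕ} {r : ℝ} : D n r (al n) = (r ^ (n + 1) - 1) * Real.sin (al n) := by
  have e1 : ((n : ℝ) + 1) * al n = 2 * Real.pi := al_mul n
  have e2 : (n : ℝ) * al n = 2 * Real.pi - al n := by linarith
  rw [D, e1, e2, Real.sin_two_pi, Real.sin_two_pi_sub]
  ring

theorem Gf_edge_one {n : ℕ} (hn : 2 ≤ n) : Gf n (pol 1 (al n)) = 0 := by
  have hne : pol 1 (al n) ≠ 1 := by
    intro h
    have := congrArg im h
    rw [pol_im, one_im] at this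
    have h2 := Real.sin_pos_of_pos_of_lt_pi (al_pos n) (al_lt_pi hn)
    linarith
  rw [Gf_div hne, pol_pow]
  push_cast
  rw [al_mul n, one_pow, pol]
  push_cast
  rw [exp_two_pi_mul_I]
  simp

end Vale.Agent.P097.H536.T8
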