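import Vale.Agent.P097.H536.T8.G

/-! # P097 / TRIG-T8, part 2: derivative, growth, real values of `G`; the region -/

set_option linter.all false

open Complex Metric Filter Topology Set
open scoped ComplexConjugate

namespace Vale.Agent.P097.H536.T8

open Vale.Agent.P097.H536

/-! ### Differentiability -/

theorem differentiable_P (n : ℕ) : Differentiable ℂ (P n) := by
  unfold P
  fun_prop

theorem Gf_differentiableAt {n : ℕ} {x : ℂ} (h : P n x ≠ 0) : DifferentiableAt ℂ (Gf n) x :=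
  (differentiable_P (n + 1) x).div (differentiable_P n x) h

theorem Gf_continuousAt {n : ℕ} {x : ℂ} (h : P n x ≠ 0) : ContinuousAt (Gf n) x :=
  (Gf_differentiableAt h).continuousAt

/-- no critical point on the ray of positive reals -/
theorem crit_real {n : ℕ} (hn : 2 ≤ n) {r : ℝ} (hr : 0 < r) (h1 : r ≠ 1) :
    0 < r ^ (n + 1) - (n + 1) * r + n := by
  have e : r ^ (n + 1) - (n + 1) * r + n =
      ∑ k ∈ Finset.range (n + 1), (r ^ k - 1) * (r - 1) := by
    have h2 : (∑ k ∈ Finset.range (n + 1), r ^ k) * (r - 1) = r ^ (n + 1) - 1 := geom_sum_mul r _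
    rw [← Finset.sum_mul, Finset.sum_sub_distrib, sub_mul, h2]
    simp
    ring
  rw [e]
  apply Finset.sum_pos'
  · intro k _
    rcases le_or_gt 1 r with h | h
    · exact mul_nonneg (sub_nonneg.2 (one_le_pow₀ h)) (sub_nonneg.2 h)
    · exact mul_nonneg_of_nonpos_of_nonpos (sub_nonpos.2 (pow_le_one₀ hr.le h.le))
        (sub_nonpos.2 h.le)
  · refine ⟨1, Finset.mem_range.2 (by omega), ?_⟩
    rw [pow_one]
    exact mul_self_pos.2 (sub_ne_zero.2 h1)

theorem sin_concave {n : ℕ} (hn : 2 ≤ n) {a : ℝ} (h0 : 0 < a) (h1 : ((n : ℝ) + 1) * a ≤ Real.pi) :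
    n * Real.sin ((n + 1) * a) < (n + 1) * Real.sin (n * a) ∧
    Real.sin ((n + 1) * a) < (n + 1) * Real.sin a := by
  have hn1 : (0 : ℝ) < n := by exact_mod_cast (by omega : 0 < n)
  have hx : (0 : ℝ) < (n + 1) * a := by positivity
  constructor
  · have := strictConcaveOn_sin_Icc.2 (⟨le_rfl, Real.pi_pos.le⟩ : (0 : ℝ) ∈ Icc 0 Real.pi)
      (⟨hx.le, h1⟩ : ((n : ℝ) + 1) * a ∈ Icc 0 Real.pi) hx.ne
      (by positivity : (0 : ℝ) < 1 / ((n : ℝ) + 1)) (by positivity : (0 : ℝ) < n / ((n : ℝ) + 1))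
      (by field_simp; ring)
    simp only [smul_eq_mul, mul_zero, Real.sin_zero, zero_add] at this
    have e : (n : ℝ) / (n + 1) * ((n + 1) * a) = n * a := by field_simp
    rw [e, div_mul_eq_mul_div, div_lt_iff₀ (by positivity)] at this
    linarith
  · have := strictConcaveOn_sin_Icc.2 (⟨le_rfl, Real.pi_pos.le⟩ : (0 : ℝ) ∈ Icc 0 Real.pi)
      (⟨hx.le, h1⟩ : ((n : ℝ) + 1) * a ∈ Icc 0 Real.pi) hx.ne
      (by positivity : (0 : ℝ) < n / ((n : ℝ) + 1)) (by positivity : (0 : ℝ) < 1 / ((n : ℝ) + 1))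
      (by field_simp)
    simp only [smul_eq_mul, mul_zero, Real.sin_zero, zero_add] at this
    have e : 1 / ((n : ℝ) + 1) * ((n + 1) * a) = a := by field_simp
    rw [e, div_mul_eq_mul_div, div_lt_iff₀ (by positivity)] at this
    linarith

/-- no critical point in the closed sector -/
theorem crit_ne {n : ℕ} (hn : 2 ≤ n) {x : ℂ} (hx : x ∈ SC n) (h0 : x ≠ 0) (h1 : x ≠ 1) :
    x ^ (n + 1) - (n + 1) * x + n ≠ 0 := by
  obtain ⟨r, a, hr, ha0, ha1, rfl⟩ := exists_pol hn hx h0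
  have hpi := Real.pi_pos
  have hn1 : (2 : ℝ) ≤ n := by exact_mod_cast hn
  intro h
  have hre := congrArg re h
  have him := congrArg im h
  rw [add_re, sub_re, pol_pow, pol_re, natCast_re, zero_re] at hre
  rw [add_im, sub_im, pol_pow, pol_im, natCast_im, zero_im, add_zero] at him
  have e1 : (((n : ℂ) + 1) * pol r a).re = (n + 1) * (r * Real.cos a) := by
    rw [show ((n : ℂ) + 1) = (((n : ℝ) + 1 : ℝ) : ℂ) by push_cast; ring, re_ofReal_mul, pol_re]
  have e2 : (((n : ℂ) + 1) * pol r a).im = (n + 1) * (r * Real.sin a) := by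
    rw [show ((n : ℂ) + 1) = (((n : ℝ) + 1 : ℝ) : ℂ) by push_cast; ring, im_ofReal_mul, pol_im]
  rw [e1] at hre
  rw [e2] at him
  push_cast at hre him
  rcases ha0.eq_or_lt with h2 | h2
  · -- real
    rw [← h2] at hre
    simp only [mul_zero, Real.cos_zero, mul_one] at hre
    have hr1 : r ≠ 1 := by
      intro h3
      apply h1
      rw [h3, ← h2, pol]
      simp
    have := crit_real hn hr hr1
    linarith
  · have hapi : a < Real.pi := ha1.trans_lt (al_lt_pi hn)
    have hs : 0 < Real.sin a := Real.sin_pos_of_pos_of_lt_pi h2 hapi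
    have hrn : r ^ n * Real.sin ((n + 1) * a) = (n + 1) * Real.sin a := by
      have : r * (r ^ n * Real.sin ((n + 1) * a)) = r * ((n + 1) * Real.sin a) := by
        rw [pow_succ] at him
        linarith
      exact mul_left_cancel₀ hr.ne' this
    have hspos : 0 < Real.sin ((n + 1) * a) := by
      by_contra hle
      push Not at hle
      nlinarith [pow_pos hr n, mul_pos (by linarith : (0 : ℝ) < n + 1) hs,
        mul_nonpos_of_nonneg_of_nonpos (pow_pos hr n).le hle]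
    have hlt : ((n : ℝ) + 1) * a ≤ Real.pi := by
      by_contra hlt
      push Not at hlt
      have h3 : ((n : ℝ) + 1) * a ≤ 2 * Real.pi := by
        rw [← al_mul n]
        gcongr
      have := Real.sin_nonneg_of_nonneg_of_le_pi (x := (n + 1) * a - Real.pi) (by linarith)
        (by linarith)
      rw [Real.sin_sub_pi] at this
      linarith
    obtain ⟨c1, c2⟩ := sin_concave hn h2 hlt
    have hrn1 : 1 < r ^ n := by
      by_contra hle
      push Not at hle
      nlinarith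
    have hr1 : 1 < r := by
      by_contra hle
      push Not at hle
      have := pow_le_one₀ (n := n) hr.le hle
      linarith
    have key : n * Real.sin ((n + 1) * a) = (n + 1) * (r * Real.sin (n * a)) := by
      have e3 : Real.sin (n * a) = Real.sin ((n + 1) * a) * Real.cos a -
          Real.cos ((n + 1) * a) * Real.sin a := by
        rw [← Real.sin_sub]
        ring_nf
      rw [e3]
      linear_combination (Real.sin ((n + 1) * a)) * hre - (Real.cos ((n + 1) * a)) * him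
    have h4 : 0 < Real.sin (n * a) := by
      by_contra hle
      push Not at hle
      nlinarith [mul_nonpos_of_nonneg_of_nonpos hr.le hle]
    nlinarith [mul_pos (sub_pos.2 hr1) h4, mul_pos (mul_pos (sub_pos.2 hr1) h4)
      (by linarith : (0 : ℝ) < n + 1)]

theorem Gf_hasDerivAt {n : ℕ} {x : ℂ} (h1 : x ≠ 1) (h2 : x ^ n ≠ 1) (hn : 1 ≤ n) :
    HasDerivAt (Gf n) (x ^ (n - 1) * (x ^ (n + 1) - (n + 1) * x + n) / (x ^ n - 1) ^ 2) x := by
  have h3 : HasDerivAt (fun x : ℂ => (x ^ (n + 1) - 1) / (x ^ n - 1))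
      ((((n + 1 : ℕ) : ℂ) * x ^ n * (x ^ n - 1) - (x ^ (n + 1) - 1) * (n * x ^ (n - 1)))
        / (x ^ n - 1) ^ 2) x := by
    have := ((hasDerivAt_pow (n + 1) x).sub_const 1).div ((hasDerivAt_pow n x).sub_const 1)
      (sub_ne_zero.2 h2)
    exact this
  have h4 : Gf n =ᶠ[𝓝 x] fun x : ℂ => (x ^ (n + 1) - 1) / (x ^ n - 1) := by
    filter_upwards [isOpen_ne.mem_nhds h1] with y hy
    exact Gf_div hy
  refine (h3.congr_of_eventuallyEq h4).congr_deriv ?_
  congr 1
  obtain ⟨k, rfl⟩ : ∃ k, n = k + 1 := ⟨n - 1, by omega⟩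
  simp only [Nat.add_sub_cancel]
  push_cast
  ring

/-- (G3) -/
theorem deriv_Gf_ne {n : ℕ} (hn : 2 ≤ n) {x : ℂ} (hx : x ∈ SC n) (h0 : x ≠ 0) :
    deriv (Gf n) x ≠ 0 := by
  by_cases h1 : x = 1
  · rw [h1]
    have hd : ∀ m : ℕ, HasDerivAt (P m) (∑ i ∈ Finset.range m, (i : ℂ)) 1 := by
      intro m
      have : HasDerivAt (P m) (∑ i ∈ Finset.range m, (i : ℂ) * 1 ^ (i - 1)) 1 :=
        HasDerivAt.fun_sum fun i _ => hasDerivAt_pow i 1
      simpa using this
    have hn0 : (n : ℂ) ≠ 0 := by exact_mod_cast (by omega : n ≠ 0)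
    have h2 := (hd (n + 1)).div (hd n) (by rw [P_one]; exact hn0)
    have h3 : deriv (Gf n) 1 = _ := h2.deriv
    rw [h3, P_one, P_one, Finset.sum_range_succ]
    have hsum : (∑ i ∈ Finset.range n, (i : ℂ)) * 2 = n * (n - 1) := by
      have := Finset.sum_range_id_mul_two n
      have h4 : ((∑ i ∈ Finset.range n, i : ℕ) : ℂ) * 2 = ((n * (n - 1) : ℕ) : ℂ) := by
        exact_mod_cast this
      push_cast [Nat.cast_sub (by omega : 1 ≤ n)] at h4
      exact h4
    have hS : (∑ i ∈ Finset.range n, (i : ℂ)) = n * (n - 1) / 2 := by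
      rw [← hsum]
      ring
    rw [hS]
    push_cast
    have e : (((n : ℂ) * (n - 1) / 2 + n) * n - (n + 1) * (n * (n - 1) / 2)) / (n : ℂ) ^ 2
        = (n + 1) / (2 * n) := by
      field_simp
      ring
    rw [e]
    have : (n : ℂ) + 1 ≠ 0 := by exact_mod_cast (by omega : n + 1 ≠ 0)
    exact div_ne_zero this (mul_ne_zero two_ne_zero hn0)
  · obtain ⟨r, a, hr, ha0, ha1, hxp⟩ := exists_pol hn hx h0
    have h2 : x ^ n ≠ 1 := by
      rw [hxp] at h1 ⊢
      exact pow_ne_one_of hn hr ha0 ha1 h1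
    rw [(Gf_hasDerivAt h1 h2 (by omega)).deriv]
    exact div_ne_zero (mul_ne_zero (pow_ne_zero _ h0) (crit_ne hn hx h0 h1))
      (pow_ne_zero _ (sub_ne_zero.2 h2))

/-- (G4) growth -/
theorem Gf_growth {n : ℕ} (hn : 2 ≤ n) {x : ℂ} (hx : 2 ≤ ‖x‖) : ‖x‖ / 2 ≤ ‖Gf n x‖ := by
  have h1 : x ≠ 1 := by
    intro h
    rw [h, norm_one] at hx
    linarith
  have hxn : 2 ≤ ‖x‖ ^ n := by
    calc (2 : ℝ) ≤ ‖x‖ ^ 1 := by rw [pow_one]; exact hx
      _ ≤ ‖x‖ ^ n := pow_le_pow_right₀ (by linarith) (by omega)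
  have h2 : x ^ n - 1 ≠ 0 := by
    intro h
    have := congrArg norm (sub_eq_zero.1 h)
    rw [norm_pow, norm_one] at this
    linarith
  rw [Gf_div h1, norm_div, div_le_div_iff₀ (by norm_num) (norm_pos_iff.2 h2)]
  have h3 : ‖x ^ n - 1‖ ≤ ‖x‖ ^ n + 1 := by
    calc ‖x ^ n - 1‖ ≤ ‖x ^ n‖ + ‖(1 : ℂ)‖ := norm_sub_le _ _
      _ = _ := by rw [norm_pow, norm_one]
  have h4 : ‖x‖ ^ (n + 1) - 1 ≤ ‖x ^ (n + 1) - 1‖ := by
    calc ‖x‖ ^ (n + 1) - 1 = ‖x ^ (n + 1)‖ - ‖(1 : ℂ)‖ := by rw [norm_pow, norm_one]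
      _ ≤ _ := norm_sub_norm_le _ _
  have h5 : 2 * ‖x‖ ≤ ‖x‖ ^ (n + 1) := by
    rw [pow_succ]
    gcongr
  calc ‖x‖ * ‖x ^ n - 1‖ ≤ ‖x‖ * (‖x‖ ^ n + 1) := by gcongr
    _ = ‖x‖ ^ (n + 1) + ‖x‖ := by ring
    _ ≤ (‖x‖ ^ (n + 1) - 1) * 2 := by linarith
    _ ≤ ‖x ^ (n + 1) - 1‖ * 2 := by gcongr

theorem Gf_zero {n : ℕ} (hn : 2 ≤ n) : Gf n 0 = 1 := by
  have h : ∀ m : ℕ, 1 ≤ m → P m 0 = 1 := by
    intro m hm
    rw [P, Finset.sum_eq_single 0]
    · simp
    · intro b _ hb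
      exact zero_pow hb
    · intro h
      exact absurd (Finset.mem_range.2 (by omega)) h
  rw [Gf_eq, h _ (by omega), h _ (by omega), div_one]

/-! ### Real values -/

/-- `G` on the positive reals -/
noncomputable def gR (n : ℕ) (x : ℝ) : ℝ := 1 + x ^ n / ∑ i ∈ Finset.range n, x ^ i

theorem den_pos {n : ℕ} (hn : 2 ≤ n) {x : ℝ} (hx : 0 ≤ x) : 0 < ∑ i ∈ Finset.range n, x ^ i := by
  apply Finset.sum_pos'
  · intro i _
    positivity
  · exact ⟨0, Finset.mem_range.2 (by omega), by simp⟩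

theorem Gf_real {n : ℕ} (hn : 2 ≤ n) {x : ℝ} (hx : 0 ≤ x) : Gf n x = (gR n x : ℂ) := by
  have h1 := (den_pos hn hx).ne'
  have h2 : P n (x : ℂ) = ((∑ i ∈ Finset.range n, x ^ i : ℝ) : ℂ) := by
    simp [P]
  have h3 : P n (x : ℂ) ≠ 0 := by
    rw [h2]
    exact_mod_cast h1
  have h4 : P (n + 1) (x : ℂ) = P n (x : ℂ) + (x : ℂ) ^ n := by
    rw [P, P, Finset.sum_range_succ]
  rw [Gf_eq, h4, add_div, div_self h3, gR, h2]
  push_cast
  rfl

theorem gR_zero {n : ℕ} (hn : 2 ≤ n) : gR n 0 = 1 := by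
  rw [gR, zero_pow (by omega), zero_div, add_zero]

theorem gR_one {n : ℕ} (hn : 2 ≤ n) : gR n 1 = (n + 1) / n := by
  have : (n : ℝ) ≠ 0 := by exact_mod_cast (by omega : n ≠ 0)
  rw [gR]
  simp
  field_simp

/-- strictly increasing on `[0, ∞)` -/
theorem gR_strictMono {n : ℕ} (hn : 2 ≤ n) {x y : ℝ} (hx : 0 ≤ x) (hxy : x < y) :
    gR n x < gR n y := by
  have hy : 0 < y := lt_of_le_of_lt hx hxy
  have h1 := den_pos hn hx
  have h2 := den_pos hn hy.le
  rw [gR, gR]
  have h3 : x ^ n / ∑ i ∈ Finset.range n, x ^ i < y ^ n / ∑ i ∈ Finset.range n, y ^ i := by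
    rw [div_lt_div_iff₀ h1 h2, Finset.mul_sum, Finset.mul_sum]
    apply Finset.sum_lt_sum
    · intro i hi
      have hi' := Finset.mem_range.1 hi
      have e1 : x ^ n = x ^ i * x ^ (n - i) := by rw [← pow_add]; congr 1; omega
      have e2 : y ^ n = y ^ i * y ^ (n - i) := by rw [← pow_add]; congr 1; omega
      calc x ^ n * y ^ i = (x ^ i * y ^ i) * x ^ (n - i) := by rw [e1]; ring
        _ ≤ (x ^ i * y ^ i) * y ^ (n - i) := by gcongr
        _ = y ^ n * x ^ i := by rw [e2]; ring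
    · refine ⟨0, Finset.mem_range.2 (by omega), ?_⟩
      simp only [pow_zero, mul_one]
      exact pow_lt_pow_left₀ hxy hx (by omega)
  linarith

theorem gR_lt_iff {n : ℕ} (hn : 2 ≤ n) {x y : ℝ} (hx : 0 ≤ x) (hy : 0 ≤ y) :
    gR n x < gR n y ↔ x < y := by
  constructor
  · intro h
    by_contra hle
    push Not at hle
    rcases hle.eq_or_lt with h1 | h1
    · rw [h1] at h
      exact lt_irrefl _ h
    · exact lt_asymm h (gR_strictMono hn hy h1)
  · exact gR_strictMono hn hx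

theorem gR_le_iff {n : ℕ} (hn : 2 ≤ n) {x y : ℝ} (hx : 0 ≤ x) (hy : 0 ≤ y) :
    gR n x ≤ gR n y ↔ x ≤ y := by
  rw [← not_lt, ← not_lt, gR_lt_iff hn hy hx]

theorem gR_ge_one {n : ℕ} (hn : 2 ≤ n) {x : ℝ} (hx : 0 ≤ x) : 1 ≤ gR n x := by
  rw [← gR_zero hn]
  exact (gR_le_iff hn le_rfl hx).2 hx

/-- trichotomy for a point of the closed sector where `G` is real -/
theorem real_value {n : ℕ} (hn : 2 ≤ n) {x : ℂ} (hx : x ∈ SC n) (h0 : x ≠ 0)
    (him : (Gf n x).im = 0) :
    (∃ t : ℝ, 0 < t ∧ x = t) ∨ (0 ≤ (Gf n x).re ∧ (Gf n x).re < 1) := by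
  obtain ⟨r, a, hr, ha0, ha1, rfl⟩ := exists_pol hn hx h0
  rcases ha0.eq_or_lt with h2 | h2
  · left
    refine ⟨r, hr, ?_⟩
    rw [← h2, pol]
    simp
  right
  rcases ha1.eq_or_lt with h3 | h3
  · subst h3
    have h4 := (Gf_im_zero_iff hn hr h2 le_rfl).1 him
    rw [D_edge] at h4
    have h5 := Real.sin_pos_of_pos_of_lt_pi (al_pos n) (al_lt_pi hn)
    have h6 : r ^ (n + 1) = 1 := by
      rcases mul_eq_zero.1 h4 with h | h
      · linarith
      · linarith
    have h7 : r = 1 := (pow_eq_one_iff_of_nonneg hr.le (by omega)).1 h6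
    rw [h7, Gf_edge_one hn]
    simp
  · have := G1 hn hr h2 h3 him
    exact ⟨this.1.le, this.2⟩

/-- real value `> 1` of `G` in the closed sector: real point -/
theorem real_of_gt {n : ℕ} (hn : 2 ≤ n) {x : ℂ} (hx : x ∈ SC n) (h0 : x ≠ 0) {v : ℝ}
    (hv : Gf n x = v) (h1 : 1 ≤ v) : ∃ t : ℝ, 0 < t ∧ x = t ∧ gR n t = v := by
  rcases real_value hn hx h0 (by rw [hv, ofReal_im]) with ⟨t, ht, rfl⟩ | h
  · refine ⟨t, ht, rfl, ?_⟩
    rw [Gf_real hn ht.le] at hv
    exact_mod_cast hv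
  · rw [hv, ofReal_re] at h
    linarith [h.2]

/-- no negative real value in the closed sector -/
theorem no_neg {n : ℕ} (hn : 2 ≤ n) {x : ℂ} (hx : x ∈ SC n) {v : ℝ} (hv : Gf n x = v) : 0 ≤ v := by
  by_cases h0 : x = 0
  · rw [h0, Gf_zero hn] at hv
    have : v = 1 := by exact_mod_cast hv.symm
    linarith
  · rcases real_value hn hx h0 (by rw [hv, ofReal_im]) with ⟨t, ht, rfl⟩ | h
    · rw [Gf_real hn ht.le] at hv
      have : gR n t = v := by exact_mod_cast hv
      linarith [gR_ge_one hn ht.le]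
    · rw [hv, ofReal_re] at h
      exact h.1

/-! ### The region -/

/-- the region of the ratios -/
def RR (n : ℕ) : Set ℂ :=
  {q | 0 < q.im ∧ (q * exp (-(al n : ℂ) * I)).im < 0 ∧ 0 < (Gf n q).im ∧ (Gf n q⁻¹).im < 0}

/-- its closure without `0` -/
def CR (n : ℕ) : Set ℂ := {q | q ∈ SC n ∧ q ≠ 0 ∧ 0 ≤ (Gf n q).im ∧ (Gf n q⁻¹).im ≤ 0}

theorem RR_sub_CR (n : ℕ) : RR n ⊆ CR n := by
  rintro q ⟨h1, h2, h3, h4⟩
  refine ⟨⟨h1.le, h2.le⟩, ?_, h3.le, h4.le⟩
  rintro rfl
  simp at h1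

theorem conj_inv_SC {n : ℕ} (hn : 2 ≤ n) {q : ℂ} (hq : q ∈ SC n) (h0 : q ≠ 0) :
    conj q⁻¹ ∈ SC n := by
  obtain ⟨r, a, hr, ha0, ha1, rfl⟩ := exists_pol hn hq h0
  rw [pol_inv hr, conj_conj]
  exact pol_mem_SC hn (inv_pos.2 hr).le ha0 ha1

theorem P_inv_ne {n : ℕ} (hn : 2 ≤ n) {q : ℂ} (hq : q ∈ SC n) (h0 : q ≠ 0) : P n q⁻¹ ≠ 0 := by
  have h1 := P_ne' hn (conj_inv_SC hn hq h0)
  rw [P_conj] at h1
  exact fun h => h1 (by rw [h, map_zero])

theorem deriv_Gf_inv_ne {n : ℕ} (hn : 2 ≤ n) {q : ℂ} (hq : q ∈ SC n) (h0 : q ≠ 0) :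
    deriv (Gf n) q⁻¹ ≠ 0 := by
  have h1 := deriv_Gf_ne hn (conj_inv_SC hn hq h0) (by simpa using h0)
  have h2 : deriv (Gf n) (conj q⁻¹) = conj (deriv (Gf n) q⁻¹) := by
    have e : Gf n = fun x => conj (Gf n (conj x)) := by
      funext x
      rw [Gf_conj, conj_conj]
    have h3 : DifferentiableAt ℂ (Gf n) q⁻¹ := Gf_differentiableAt (P_inv_ne hn hq h0)
    have h4 := h3.hasDerivAt.conj_conj
    have h5 : (conj ∘ Gf n ∘ conj) = Gf n := by
      funext x
      simp only [Function.comp]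
      rw [Gf_conj, conj_conj]
    rw [h5] at h4
    exact h4.deriv
  rw [h2] at h1
  exact fun h => h1 (by rw [h, map_zero])

/-- the region is open -/
theorem isOpen_RR {n : ℕ} (hn : 2 ≤ n) : IsOpen (RR n) := by
  rw [isOpen_iff_mem_nhds]
  rintro q ⟨h1, h2, h3, h4⟩
  have hq0 : q ≠ 0 := by
    rintro rfl
    simp at h1
  have hS : q ∈ SC n := ⟨h1.le, h2.le⟩
  have c1 : ContinuousAt (fun q : ℂ => (Gf n q).im) q :=
    continuous_im.continuousAt.comp (Gf_continuousAt (P_ne' hn hS))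
  have c2 : ContinuousAt (fun q : ℂ => (Gf n q⁻¹).im) q :=
    continuous_im.continuousAt.comp
      (ContinuousAt.comp (f := fun q : ℂ => q⁻¹) (Gf_continuousAt (P_inv_ne hn hS hq0))
        (continuousAt_inv₀ hq0))
  have c3 : Continuous (fun q : ℂ => (q * exp (-(al n : ℂ) * I)).im) :=
    continuous_im.comp (continuous_id.mul continuous_const)
  filter_upwards [continuous_im.continuousAt.eventually (lt_mem_nhds h1),
    c3.continuousAt.eventually (gt_mem_nhds h2), c1.eventually (lt_mem_nhds h3),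
    c2.eventually (gt_mem_nhds h4)] with y y1 y2 y3 y4
  exact ⟨y1, y2, y3, y4⟩

/-- classification of the boundary points of the region -/
theorem bdry_class {n : ℕ} (hn : 2 ≤ n) {q : ℂ} (hq : q ∈ CR n) (hR : q ∉ RR n) :
    (∃ v : ℝ, Gf n q = v ∧ v < (n + 1) / n) ∨ (∃ v : ℝ, Gf n q⁻¹ = v ∧ v ≤ (n + 1) / n) := by
  obtain ⟨hS, h0, h3, h4⟩ := hq
  have hn1 : (0 : ℝ) < n := by exact_mod_cast (by omega : 0 < n)
  have h1n : (1 : ℝ) < (n + 1) / n := by
    rw [lt_div_iff₀ hn1]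
    linarith
  obtain ⟨r, a, hr, ha0, ha1, hqp⟩ := exists_pol hn hS h0
  rcases ha0.eq_or_lt with h2 | h2
  · -- real
    have hq' : q = r := by
      rw [hqp, ← h2, pol]
      simp
    rcases lt_or_ge r 1 with h5 | h5
    · left
      refine ⟨gR n r, ?_, ?_⟩
      · rw [hq', Gf_real hn hr.le]
      · rw [← gR_one hn]
        exact gR_strictMono hn hr.le h5
    · right
      refine ⟨gR n r⁻¹, ?_, ?_⟩
      · rw [hq', ← ofReal_inv, Gf_real hn (inv_pos.2 hr).le]
      · rw [← gR_one hn, gR_le_iff hn (inv_pos.2 hr).le zero_le_one]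
        exact inv_le_one_of_one_le₀ h5
  · have hs : 0 < q.im := by
      rw [hqp, pol_im]
      exact mul_pos hr (Real.sin_pos_of_pos_of_lt_pi h2 (ha1.trans_lt (al_lt_pi hn)))
    -- either value real gives the claim
    have hc1 : (Gf n q).im = 0 → ∃ v : ℝ, Gf n q = v ∧ v < (n + 1) / n := by
      intro him
      refine ⟨(Gf n q).re, ?_, ?_⟩
      · apply Complex.ext
        · rw [ofReal_re]
        · rw [him, ofReal_im]
      · rcases real_value hn hS h0 him with ⟨t, ht, hqt⟩ | h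
        · rw [hqt, ofReal_im] at hs
          exact absurd hs (lt_irrefl _)
        · linarith [h.2]
    have hc2 : (Gf n q⁻¹).im = 0 → ∃ v : ℝ, Gf n q⁻¹ = v ∧ v ≤ (n + 1) / n := by
      intro him
      refine ⟨(Gf n q⁻¹).re, ?_, ?_⟩
      · apply Complex.ext
        · rw [ofReal_re]
        · rw [him, ofReal_im]
      · have him' : (Gf n (conj q⁻¹)).im = 0 := by rw [Gf_conj, conj_im, him, neg_zero]
        have hre' : (Gf n (conj q⁻¹)).re = (Gf n q⁻¹).re := by rw [Gf_conj, conj_re]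
        rcases real_value hn (conj_inv_SC hn hS h0) (by simpa using h0) him' with ⟨t, ht, hqt⟩ | h
        · exfalso
          have h6 : q⁻¹ = t := by
            have := congrArg conj hqt
            rwa [conj_conj, conj_ofReal] at this
          have h7 : q = ((t⁻¹ : ℝ) : ℂ) := by
            rw [ofReal_inv, ← h6, inv_inv]
          rw [h7, ofReal_im] at hs
          exact lt_irrefl _ hs
        · rw [hre'] at h
          linarith [h.2]
    rcases h3.eq_or_lt with h5 | h5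
    · left
      exact hc1 h5.symm
    rcases h4.eq_or_lt with h6 | h6
    · right
      exact hc2 h6
    -- both strict: on the edge, impossible
    exfalso
    apply hR
    refine ⟨hs, ?_, h5, h6⟩
    rcases ha1.eq_or_lt with h7 | h7
    · exfalso
      subst h7
      rw [hqp] at h5 h6
      have h8 := (Gf_im_pos_iff hn hr h2 le_rfl).1 h5
      rw [D_edge] at h8
      have hs2 := Real.sin_pos_of_pos_of_lt_pi (al_pos n) (al_lt_pi hn)
      have h9 : 1 < r ^ (n + 1) := by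
        have := pos_of_mul_pos_left h8 hs2.le
        linarith
      rw [pol_inv hr, Gf_conj, conj_im, neg_lt_zero] at h6
      have h10 := (Gf_im_pos_iff hn (inv_pos.2 hr) h2 le_rfl).1 h6
      rw [D_edge] at h10
      have h11 : 1 < r⁻¹ ^ (n + 1) := by
        have := pos_of_mul_pos_left h10 hs2.le
        linarith
      rw [inv_pow] at h11
      have := inv_lt_one_of_one_lt₀ h9
      linarith
    · have e : q * exp (-(al n : ℂ) * I) = pol r (a - al n) := by
        rw [hqp, pol, pol, mul_assoc, ← exp_add]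
        push_cast
        ring_nf
      rw [e, pol_im]
      have h8 : 0 < Real.sin (al n - a) :=
        Real.sin_pos_of_pos_of_lt_pi (by linarith) (by linarith [al_lt_pi hn])
      have h9 : Real.sin (a - al n) = -Real.sin (al n - a) := by
        rw [← Real.sin_neg]
        ring_nf
      rw [h9]
      nlinarith [mul_pos hr h8]

/-- points of small positive argument are in the region -/
theorem mem_RR {n : ℕ} (hn : 2 ≤ n) {q : ℂ} (h0 : 0 < q.im) (h1 : q.arg * n ≤ Real.pi) :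
    q ∈ RR n := by
  have hn1 : (2 : ℝ) ≤ n := by exact_mod_cast hn
  have hq0 : q ≠ 0 := by
    rintro rfl
    simp at h0
  have ha0 : 0 < q.arg := by
    have h2 : 0 ≤ q.arg := Complex.arg_nonneg_iff.2 h0.le
    rcases h2.eq_or_lt with h | h
    · exfalso
      have := (Complex.arg_eq_zero_iff.1 h.symm).2
      rw [this] at h0
      exact lt_irrefl _ h0
    · exact h
  set a := q.arg with ha
  have hr : 0 < ‖q‖ := norm_pos_iff.2 hq0
  have hqp : q = pol ‖q‖ a := by rw [pol, norm_mul_exp_arg_mul_I]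
  have hal : a < al n := by
    rw [al, lt_div_iff₀ (by linarith)]
    nlinarith [Real.pi_pos]
  have hapi := hal.trans (al_lt_pi hn)
  have h2 : (n : ℝ) * a ≤ Real.pi := by linarith
  refine ⟨h0, ?_, ?_, ?_⟩
  · have e : q * exp (-(al n : ℂ) * I) = pol ‖q‖ (a - al n) := by
      conv_lhs => rw [hqp]
      rw [pol, pol, mul_assoc, ← exp_add]
      push_cast
      ring_nf
    rw [e, pol_im]
    have h8 : 0 < Real.sin (al n - a) :=
      Real.sin_pos_of_pos_of_lt_pi (by linarith) (by linarith [al_lt_pi hn])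
    have h9 : Real.sin (a - al n) = -Real.sin (al n - a) := by
      rw [← Real.sin_neg]
      ring_nf
    rw [h9]
    nlinarith [mul_pos hr h8]
  · rw [hqp, Gf_im_pos_iff hn hr ha0 hal.le]
    exact D_pos (by omega) hr ha0 h2 hapi
  · rw [hqp, pol_inv hr, Gf_conj, conj_im, neg_lt_zero, Gf_im_pos_iff hn (inv_pos.2 hr) ha0 hal.le]
    exact D_pos (by omega) (inv_pos.2 hr) ha0 h2 hapi

end Vale.Agent.P097.H536.T8
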