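import Vale.Agent.P097.H536.T8.Asy

/-! # P097 / TRIG-T8, part 4: local continuation through the equation `G(x) = F(l)` -/

set_option linter.all false

open Complex Metric Filter Topology Set
open scoped ComplexConjugate

namespace Vale.Agent.P097.H536.T8

open Vale.Agent.P097.H536

/-- existence of a limit point -/
theorem cluster {n : ℕ} (hn : 2 ≤ n) {S : Set ℂ} (hS : IsClosed S)
    (hP : ∀ x ∈ S, P n x ≠ 0) {D : Set ℂ} {l₀ : ℂ} (hl : l₀ ∈ closure D) {x F : ℂ → ℂ} {r : ℝ}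
    (hr : 0 < r) (hx : ∀ l ∈ D, l ∈ ball l₀ r → x l ∈ S) (hF : ContinuousAt F l₀)
    (he : ∀ l ∈ D, l ∈ ball l₀ r → Gf n (x l) = F l) :
    ∃ x₀ ∈ S, Gf n x₀ = F l₀ ∧ ∀ U ∈ 𝓝 x₀, ∀ ε > 0, ∃ l ∈ D, l ∈ ball l₀ ε ∧ x l ∈ U := by
  haveI : NeBot (𝓝[D] l₀) := mem_closure_iff_nhdsWithin_neBot.1 hl
  -- boundedness
  obtain ⟨M, hM⟩ : ∃ M : ℝ, ∀ᶠ l in 𝓝[D] l₀, x l ∈ S ∩ closedBall 0 M := by
    refine ⟨max 2 (2 * (‖F l₀‖ + 1)), ?_⟩
    have h1 : ∀ᶠ l in 𝓝[D] l₀, ‖F l‖ < ‖F l₀‖ + 1 :=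
      nhdsWithin_le_nhds (hF.norm.eventually (gt_mem_nhds (by linarith)))
    have h2 : ∀ᶠ l in 𝓝[D] l₀, l ∈ ball l₀ r := nhdsWithin_le_nhds (ball_mem_nhds l₀ hr)
    filter_upwards [h1, h2, self_mem_nhdsWithin] with l a1 a2 a3
    refine ⟨hx l a3 a2, ?_⟩
    rw [mem_closedBall, dist_zero_right]
    by_contra hlt
    push Not at hlt
    have h3 : 2 ≤ ‖x l‖ := (le_max_left _ _).trans hlt.le
    have h4 := Gf_growth hn h3
    rw [he l a3 a2] at h4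
    have h5 := (le_max_right 2 (2 * (‖F l₀‖ + 1))).trans hlt.le
    linarith
  have hK : IsCompact (S ∩ closedBall (0 : ℂ) M) := (isCompact_closedBall 0 M).inter_left hS
  obtain ⟨x₀, hx₀, hc⟩ := hK (f := map x (𝓝[D] l₀)) (by
    rw [le_principal_iff]
    exact hM)
  have hfr : ∀ U ∈ 𝓝 x₀, ∃ᶠ l in 𝓝[D] l₀, x l ∈ U := by
    intro U hU
    exact (mapClusterPt_iff_frequently (u := x) (F := 𝓝[D] l₀) (x := x₀)).1 hc U hU
  refine ⟨x₀, hx₀.1, ?_, ?_⟩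
  · by_contra hne
    obtain ⟨U, V, hU, hV, hxU, hfV, hUV⟩ := t2_separation hne
    have h1 : Gf n ⁻¹' U ∈ 𝓝 x₀ := (Gf_continuousAt (hP x₀ hx₀.1)) (hU.mem_nhds hxU)
    have h2 : ∀ᶠ l in 𝓝[D] l₀, F l ∈ V := nhdsWithin_le_nhds (hF (hV.mem_nhds hfV))
    have h3 : ∀ᶠ l in 𝓝[D] l₀, l ∈ ball l₀ r := nhdsWithin_le_nhds (ball_mem_nhds l₀ hr)
    have h4 : ∀ᶠ l in 𝓝[D] l₀, l ∈ D := self_mem_nhdsWithin
    obtain ⟨l, a1, a2, a3, a4⟩ := ((hfr _ h1).and_eventually (h2.and (h3.and h4))).exists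
    have h5 : F l ∈ U := by
      rw [← he l a4 a3]
      exact a1
    exact Set.disjoint_left.1 hUV h5 a2
  · intro U hU ε hε
    have h3 : ∀ᶠ l in 𝓝[D] l₀, l ∈ ball l₀ ε := nhdsWithin_le_nhds (ball_mem_nhds l₀ hε)
    have h4 : ∀ᶠ l in 𝓝[D] l₀, l ∈ D := self_mem_nhdsWithin
    obtain ⟨l, a1, a2, a3⟩ := ((hfr _ hU).and_eventually (h3.and h4)).exists
    exact ⟨l, a3, a2, a1⟩

/-- local inverse of `G` -/
theorem loc_inv {n : ℕ} {x₀ : ℂ} (hP : P n x₀ ≠ 0) (hd : deriv (Gf n) x₀ ≠ 0) :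
    ∃ ψ : ℂ → ℂ, ψ (Gf n x₀) = x₀ ∧ (∀ᶠ a in 𝓝 (Gf n x₀), DifferentiableAt ℂ ψ a) ∧
      (∀ᶠ a in 𝓝 (Gf n x₀), Gf n (ψ a) = a) ∧ (∀ᶠ x in 𝓝 x₀, ψ (Gf n x) = x) := by
  have hA : AnalyticAt ℂ (Gf n) x₀ := by
    have hnum : AnalyticAt ℂ (P (n + 1)) x₀ := (differentiable_P (n + 1)).analyticAt x₀
    have hden : AnalyticAt ℂ (P n) x₀ := (differentiable_P n).analyticAt x₀
    exact hnum.div hden hP
  have hc : ContDiffAt ℂ 1 (Gf n) x₀ := hA.contDiffAt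
  have hs : HasStrictDerivAt (Gf n) (deriv (Gf n) x₀) x₀ := hA.hasStrictDerivAt
  set f' : ℂ ≃L[ℂ] ℂ := ContinuousLinearEquiv.unitsEquivAut ℂ (Units.mk0 _ hd) with hf'
  have hfd : HasFDerivAt (Gf n) (f' : ℂ →L[ℂ] ℂ) x₀ := by
    have h1 := hA.differentiableAt.hasDerivAt.hasFDerivAt
    refine h1.congr_fderiv ?_
    ext
    simp [hf']
  refine ⟨hc.localInverse hfd one_ne_zero, ?_, ?_, ?_, ?_⟩
  · exact hc.localInverse_apply_image hfd one_ne_zero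
  · have h2 := hc.to_localInverse hfd one_ne_zero
    have h3 := h2.eventually (by simp)
    filter_upwards [h3] with a ha
    exact ha.differentiableAt one_ne_zero
  · exact (hc.hasStrictFDerivAt' hfd one_ne_zero).eventually_right_inverse
  · exact (hc.hasStrictFDerivAt' hfd one_ne_zero).eventually_left_inverse

/-- **local continuation** -/
theorem cont {n : ℕ} (hn : 2 ≤ n) {S : Set ℂ} (hS : IsClosed S)
    (hP : ∀ x ∈ S, P n x ≠ 0) (hd : ∀ x ∈ S, x ≠ 0 → deriv (Gf n) x ≠ 0) {D : Set ℂ}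
    (hDo : IsOpen D) (hDc : Convex ℝ D) {l₀ : ℂ}
    (hl : l₀ ∈ closure D) {x F : ℂ → ℂ} {r : ℝ}
    (hr : 0 < r) (hxd : DifferentiableOn ℂ x (D ∩ ball l₀ r))
    (hx : ∀ l ∈ D, l ∈ ball l₀ r → x l ∈ S) (hF : DifferentiableOn ℂ F (ball l₀ r))
    (he : ∀ l ∈ D, l ∈ ball l₀ r → Gf n (x l) = F l) (h1 : F l₀ ≠ 1) :
    ∃ r' > 0, r' ≤ r ∧ ∃ g : ℂ → ℂ, DifferentiableOn ℂ g (ball l₀ r') ∧
      (∀ l ∈ D, l ∈ ball l₀ r' → g l = x l) ∧ g l₀ ∈ S ∧ g l₀ ≠ 0 ∧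
      (∀ l ∈ ball l₀ r', Gf n (g l) = F l) := by
  have hFc : ContinuousAt F l₀ :=
    (hF.differentiableAt (isOpen_ball.mem_nhds (mem_ball_self hr))).continuousAt
  obtain ⟨x₀, hx₀, hG, hfr⟩ := cluster hn hS hP hl hr hx hFc he
  have hx0 : x₀ ≠ 0 := by
    rintro rfl
    rw [Gf_zero hn] at hG
    exact h1 hG.symm
  obtain ⟨ψ, p1, p2, p3, p4⟩ := loc_inv (hP x₀ hx₀) (hd x₀ hx₀ hx0)
  rw [hG] at p1 p2 p3
  have h2 := hFc.eventually (p2.and p3)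
  obtain ⟨ε, hε, h3⟩ := Metric.eventually_nhds_iff_ball.1 h2
  obtain ⟨U, hU1, hU2⟩ : ∃ U ∈ 𝓝 x₀, ∀ x ∈ U, ψ (Gf n x) = x := ⟨_, p4, fun x hx => hx⟩
  set r' := min r ε with hr'
  have hr'0 : 0 < r' := lt_min hr hε
  have hsub1 : ball l₀ r' ⊆ ball l₀ r := ball_subset_ball (min_le_left _ _)
  have hsub2 : ball l₀ r' ⊆ ball l₀ ε := ball_subset_ball (min_le_right _ _)
  have hg : DifferentiableOn ℂ (fun l => ψ (F l)) (ball l₀ r') := by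
    intro l hl
    have a1 := (h3 l (hsub2 hl)).1
    have a2 := hF.differentiableAt (isOpen_ball.mem_nhds (hsub1 hl))
    exact (DifferentiableAt.comp l a1 a2).differentiableWithinAt
  refine ⟨r', hr'0, min_le_left _ _, fun l => ψ (F l), hg, ?_, ?_, ?_, ?_⟩
  · obtain ⟨l₁, b1, b2, b3⟩ := hfr U hU1 r' hr'0
    obtain ⟨O, hOU, hO, hxO⟩ := _root_.mem_nhds_iff.1 hU1
    obtain ⟨l₁, b1, b2, b3⟩ := hfr O (hO.mem_nhds hxO) r' hr'0
    have hDo' : IsOpen (D ∩ ball l₀ r') := hDo.inter isOpen_ball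
    have hpc : IsPreconnected (D ∩ ball l₀ r') := (hDc.inter (convex_ball _ _)).isPreconnected
    have hx' : DifferentiableOn ℂ x (D ∩ ball l₀ r') :=
      hxd.mono (inter_subset_inter_right _ hsub1)
    have hev : (fun l => ψ (F l)) =ᶠ[𝓝 l₁] x := by
      have hcx : ContinuousAt x l₁ :=
        (hx'.differentiableAt (hDo'.mem_nhds ⟨b1, b2⟩)).continuousAt
      filter_upwards [hcx (hO.mem_nhds b3), hDo'.mem_nhds ⟨b1, b2⟩] with l a1 a2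
      rw [← he l a2.1 (hsub1 a2.2)]
      exact hU2 _ (hOU a1)
    have := ((hg.mono inter_subset_right).analyticOnNhd hDo').eqOn_of_preconnected_of_eventuallyEq
      (hx'.analyticOnNhd hDo') hpc ⟨b1, b2⟩ hev
    intro l hl1 hl2
    exact this ⟨hl1, hl2⟩
  · simp only []
    rw [p1]
    exact hx₀
  · simp only []
    rw [p1]
    exact hx0
  · intro l hl
    exact (h3 l (hsub2 hl)).2

end Vale.Agent.P097.H536.T8
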